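import Crest.Agent.H82Exp.Rep
import Crest.Prelude.Def_TruncExpWeight

set_option autoImplicit false

open MeasureTheory Set Filter Topology
open Crest.AlgGeometry (truncExpWeight)

namespace Crest.Agent.H82Exp

/-- derivative of `truncExpWeight` -/
noncomputable def g1 (y : ℝ) : ℝ := if y ≤ 0 then 0 else -y * Real.exp (-y)

/-- a.e. second derivative of `truncExpWeight` -/
noncomputable def g2 (y : ℝ) : ℝ := if y ≤ 0 then 0 else (y - 1) * Real.exp (-y)

lemma g_of_nonpos {y : ℝ} (h : y ≤ 0) : truncExpWeight y = 1 := by simp [truncExpWeight, h]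
lemma g_of_pos {y : ℝ} (h : 0 < y) : truncExpWeight y = (1 + y) * Real.exp (-y) := by
  simp [truncExpWeight, not_le.mpr h]
lemma g_of_nonneg {y : ℝ} (h : 0 ≤ y) : truncExpWeight y = (1 + y) * Real.exp (-y) := by
  rcases h.eq_or_lt with h | h
  · rw [← h, g_of_nonpos le_rfl]; simp
  · exact g_of_pos h
lemma g1_of_nonpos {y : ℝ} (h : y ≤ 0) : g1 y = 0 := by simp [g1, h]
lemma g1_of_pos {y : ℝ} (h : 0 < y) : g1 y = -y * Real.exp (-y) := by simp [g1, not_le.mpr h]
lemma g1_of_nonneg {y : ℝ} (h : 0 ≤ y) : g1 y = -y * Real.exp (-y) := by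
  rcases h.eq_or_lt with h | h
  · rw [← h, g1_of_nonpos le_rfl]; simp
  · exact g1_of_pos h
lemma g2_of_nonpos {y : ℝ} (h : y ≤ 0) : g2 y = 0 := by simp [g2, h]
lemma g2_of_pos {y : ℝ} (h : 0 < y) : g2 y = (y - 1) * Real.exp (-y) := by
  simp [g2, not_le.mpr h]

lemma one_add_mul_exp_le (y : ℝ) : (1 + y) * Real.exp (-y) ≤ 1 := by
  have h := Real.add_one_le_exp y
  have h2 := mul_le_mul_of_nonneg_right h (Real.exp_pos (-y)).le
  rw [← Real.exp_add, add_neg_cancel, Real.exp_zero] at h2
  linarith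

lemma g_nonneg (y : ℝ) : 0 ≤ truncExpWeight y := by
  rcases le_or_gt y 0 with h | h
  · rw [g_of_nonpos h]; norm_num
  · rw [g_of_pos h]; positivity

lemma g_le_one (y : ℝ) : truncExpWeight y ≤ 1 := by
  rcases le_or_gt y 0 with h | h
  · rw [g_of_nonpos h]
  · rw [g_of_pos h]; exact one_add_mul_exp_le y

lemma g1_nonpos (y : ℝ) : g1 y ≤ 0 := by
  rcases le_or_gt y 0 with h | h
  · rw [g1_of_nonpos h]
  · rw [g1_of_pos h]; nlinarith [Real.exp_pos (-y), mul_pos h (Real.exp_pos (-y))]

lemma g1_ge (y : ℝ) : -1 ≤ g1 y := by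
  rcases le_or_gt y 0 with h | h
  · rw [g1_of_nonpos h]; norm_num
  · rw [g1_of_pos h]; nlinarith [Real.exp_pos (-y), one_add_mul_exp_le y]

lemma g1_neg {y : ℝ} (h : 0 < y) : g1 y < 0 := by
  rw [g1_of_pos h]; nlinarith [mul_pos h (Real.exp_pos (-y))]

lemma BM_g : BM truncExpWeight := by
  constructor
  · unfold truncExpWeight
    exact Measurable.ite measurableSet_Iic measurable_const (by fun_prop)
  · exact ⟨1, fun y => abs_le.mpr ⟨by linarith [g_nonneg y], g_le_one y⟩⟩

lemma BM_g1 : BM g1 := by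
  constructor
  · unfold g1
    exact Measurable.ite measurableSet_Iic measurable_const (by fun_prop)
  · exact ⟨1, fun y => abs_le.mpr ⟨g1_ge y, by linarith [g1_nonpos y]⟩⟩

lemma BM_g2 : BM g2 := by
  constructor
  · unfold g2
    exact Measurable.ite measurableSet_Iic measurable_const (by fun_prop)
  · refine ⟨1, fun y => ?_⟩
    rcases le_or_gt y 0 with h | h
    · rw [g2_of_nonpos h]; norm_num
    · rw [g2_of_pos h, abs_le]
      have h1 := one_add_mul_exp_le y
      have h2 := Real.exp_pos (-y)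
      have h3 : Real.exp (-y) ≤ 1 := Real.exp_le_one_iff.mpr (by linarith)
      constructor <;> nlinarith

lemma cont_g : Continuous truncExpWeight := by
  have : truncExpWeight = fun y => (1 + max y 0) * Real.exp (-(max y 0)) := by
    funext y
    rcases le_or_gt y 0 with h | h
    · rw [g_of_nonpos h, max_eq_right h]; simp
    · rw [g_of_pos h, max_eq_left h.le]
  rw [this]; fun_prop

lemma cont_g1 : Continuous g1 := by
  have : g1 = fun y => -(max y 0) * Real.exp (-(max y 0)) := by
    funext y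
    rcases le_or_gt y 0 with h | h
    · rw [g1_of_nonpos h, max_eq_right h]; simp
    · rw [g1_of_pos h, max_eq_left h.le]
  rw [this]; fun_prop

lemma der_trunc {k k' G G' : ℝ → ℝ} (hk' : BM k') (hG : ∀ t, HasDerivAt G (G' t) t)
    (hc : Continuous G') (h1 : ∀ y, y ≤ 0 → k y = G 0) (h2 : ∀ y, 0 < y → k y = G y)
    (h3 : ∀ y, y ≤ 0 → k' y = 0) (h4 : ∀ y, 0 < y → k' y = G' y) : Der k k' := by
  have P : ∀ z, k z - G 0 = ∫ t in (0:ℝ)..z, k' t := by
    intro z
    rcases le_or_gt z 0 with hz | hz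
    · rw [h1 z hz, sub_self, intervalIntegral.integral_symm, intervalIntegral.integral_of_le hz,
        setIntegral_congr_fun measurableSet_Ioc (g := fun _ => (0:ℝ)) (fun t ht => h3 t ht.2)]
      simp
    · rw [h2 z hz, intervalIntegral.integral_of_le hz.le,
        setIntegral_congr_fun measurableSet_Ioc (g := G') (fun t ht => h4 t ht.1),
        ← intervalIntegral.integral_of_le hz.le,
        intervalIntegral.integral_eq_sub_of_hasDerivAt (fun t _ => hG t) (hc.intervalIntegrable _ _)]
  intro y z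
  have := intervalIntegral.integral_interval_sub_left (hk'.intervalIntegrable 0 z)
    (hk'.intervalIntegrable 0 y)
  rw [← this, ← P, ← P]
  ring

lemma der_g : Der truncExpWeight g1 := by
  refine der_trunc (G := fun t => (1 + t) * Real.exp (-t)) (G' := fun t => -t * Real.exp (-t))
    BM_g1 ?_ (by fun_prop) ?_ ?_ ?_ ?_
  · intro t
    have h1 : HasDerivAt (fun t : ℝ => 1 + t) 1 t := (hasDerivAt_id t).const_add 1
    have h2 : HasDerivAt (fun t : ℝ => Real.exp (-t)) (Real.exp (-t) * (-1)) t :=
      (hasDerivAt_neg t).exp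
    exact (h1.mul h2).congr_deriv (by ring)
  · intro y hy; rw [g_of_nonpos hy]; simp
  · intro y hy; rw [g_of_pos hy]
  · intro y hy; rw [g1_of_nonpos hy]
  · intro y hy; rw [g1_of_pos hy]

lemma der_g1 : Der g1 g2 := by
  refine der_trunc (G := fun t => -t * Real.exp (-t)) (G' := fun t => (t - 1) * Real.exp (-t))
    BM_g2 ?_ (by fun_prop) ?_ ?_ ?_ ?_
  · intro t
    have h1 : HasDerivAt (fun t : ℝ => -t) (-1) t := hasDerivAt_neg t
    have h2 : HasDerivAt (fun t : ℝ => Real.exp (-t)) (Real.exp (-t) * (-1)) t :=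
      (hasDerivAt_neg t).exp
    exact (h1.mul h2).congr_deriv (by ring)
  · intro y hy; rw [g1_of_nonpos hy]; simp
  · intro y hy; rw [g1_of_pos hy]
  · intro y hy; rw [g2_of_nonpos hy]
  · intro y hy; rw [g2_of_pos hy]

lemma cont_op_g2 {c : ℝ} (hc : c ≠ 0) : Continuous (Eop c g2) := by
  have : Eop c g2 = fun y => (Eop c g1 y - g1 y) / c := by
    funext y
    rw [← der_g1.res BM_g1 BM_g2 c y]
    field_simp
  rw [this]
  exact ((continuous_op BM_g1 cont_g1 c).sub cont_g1).div_const c

lemma op_g2_neg {c y : ℝ} (hc : 0 < c) (hy : y ≤ 0) : Eop c g2 y < 0 := by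
  have h0 : Eop c g2 0 < 0 := by
    have h := der_g1.res BM_g1 BM_g2 c 0
    have h1 : Eop c g1 0 < 0 := Eop_neg BM_g1 (fun x hx => g1_neg (by positivity))
    rw [g1_of_nonpos le_rfl] at h
    nlinarith
  have hx0 : 0 ≤ -y / c := div_nonneg (by linarith) hc.le
  rw [Eop_split BM_g2 c y hx0]
  have h1 : y + c * (-y / c) = 0 := by field_simp; ring
  rw [h1]
  have h2 : ∫ x in (0:ℝ)..(-y / c), Real.exp (-x) * g2 (y + c * x) = 0 := by
    rw [intervalIntegral.integral_of_le hx0, setIntegral_congr_fun measurableSet_Ioc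
      (g := fun _ => (0:ℝ))]
    · simp
    · intro x hx
      have h3 := hx.2
      rw [le_div_iff₀ hc] at h3
      simp only
      rw [g2_of_nonpos (by nlinarith), mul_zero]
  rw [h2, zero_add]
  exact mul_neg_of_pos_of_neg (Real.exp_pos _) h0

lemma SC_base {c : ℝ} (hc : 0 < c) : SC (Eop c g2) := by
  intro y y' hyy hy
  have hy0 : 0 < y := by
    by_contra h
    push Not at h
    have := op_g2_neg hc h
    linarith
  rcases le_or_gt 1 y' with h1 | h1
  · apply Eop_pos BM_g2
    intro x hx
    have : 1 < y' + c * x := by nlinarith [mul_pos hc hx]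
    rw [g2_of_pos (by linarith)]
    exact mul_pos (by linarith) (Real.exp_pos _)
  · set x0 := (y' - y) / c with hx0
    have hx0' : 0 < x0 := div_pos (by linarith) hc
    have hyeq : y + c * x0 = y' := by
      rw [hx0]; field_simp; ring
    have hs := Eop_split BM_g2 c y hx0'.le
    rw [hyeq] at hs
    have : (∫ x in (0 : ℝ)..x0, Real.exp (-x) * g2 (y + c * x)) < 0 := by
      apply int_neg BM_g2 hx0'
      intro x h1 h2
      have : y + c * x < y' := by nlinarith
      rw [g2_of_pos (by nlinarith [mul_pos hc h1])]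
      exact mul_neg_of_neg_of_pos (by linarith) (Real.exp_pos _)
    have h3 : 0 < Real.exp (-x0) * Eop c g2 y' := by linarith
    exact (pos_iff_pos_of_mul_pos h3).mp (Real.exp_pos _)

lemma WC_base (κ : ℝ) : WC (fun y => κ * (1 - truncExpWeight y) + g1 y) := by
  intro y y' hyy hy
  simp only at hy ⊢
  have hy0 : 0 < y := by
    by_contra h
    push Not at h
    rw [g_of_nonpos h, g1_of_nonpos h] at hy
    simp at hy
  have hy0' : 0 < y' := hy0.trans hyy
  rw [g_of_pos hy0, g1_of_pos hy0] at hy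
  rw [g_of_pos hy0', g1_of_pos hy0']
  have e1 : κ * (1 - (1 + y) * Real.exp (-y)) + -y * Real.exp (-y)
      = Real.exp (-y) * (κ * (Real.exp y - 1 - y) - y) := by
    have : Real.exp (-y) * Real.exp y = 1 := by rw [← Real.exp_add]; simp
    linear_combination (-κ) * this
  have e2 : κ * (1 - (1 + y') * Real.exp (-y')) + -y' * Real.exp (-y')
      = Real.exp (-y') * (κ * (Real.exp y' - 1 - y') - y') := by
    have : Real.exp (-y') * Real.exp y' = 1 := by rw [← Real.exp_add]; simp
    linear_combination (-κ) * this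
  rw [e1] at hy
  rw [e2]
  have h1 : 0 < κ * (Real.exp y - 1 - y) - y := (pos_iff_pos_of_mul_pos hy).mp (Real.exp_pos _)
  apply mul_nonneg (Real.exp_pos _).le
  have h2 : 0 ≤ Real.exp y - 1 - y := by linarith [Real.add_one_le_exp y]
  have hκ : 0 < κ := by
    by_contra h
    push Not at h
    nlinarith
  -- convexity: y' (e^y - 1) ≤ y (e^{y'} - 1)
  have hconv : y' * (Real.exp y - 1) ≤ y * (Real.exp y' - 1) := by
    have ha : 0 ≤ 1 - y / y' := by
      rw [sub_nonneg, div_le_one hy0']; exact hyy.le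
    have hb : 0 ≤ y / y' := by positivity
    have hab : (1 - y / y') + y / y' = 1 := by ring
    have hc := convexOn_exp.2 (mem_univ (0:ℝ)) (mem_univ y') ha hb hab
    simp only [smul_eq_mul, mul_zero, zero_add, Real.exp_zero, mul_one] at hc
    rw [div_mul_cancel₀ _ hy0'.ne'] at hc
    have := mul_le_mul_of_nonneg_left hc hy0'.le
    have e : y' * (1 - y / y' + y / y' * Real.exp y') = y' - y + y * Real.exp y' := by
      field_simp
    rw [e] at this
    linarith
  have h3 : y' * (Real.exp y - 1 - y) ≤ y * (Real.exp y' - 1 - y') := by nlinarith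
  have h4 : y' * y < κ * (y' * (Real.exp y - 1 - y)) := by nlinarith
  have h5 : κ * (y' * (Real.exp y - 1 - y)) ≤ κ * (y * (Real.exp y' - 1 - y')) :=
    mul_le_mul_of_nonneg_left h3 hκ.le
  have h6 : y * y' < y * (κ * (Real.exp y' - 1 - y')) := by nlinarith
  have h7 := lt_of_mul_lt_mul_left h6 hy0.le
  linarith

/-- closed form of `Eop u g` on `[0, ∞)` -/
lemma op_g_nonneg {u y : ℝ} (hu : 0 ≤ u) (hy : 0 ≤ y) :
    Eop u truncExpWeight y = Real.exp (-y) * ((1 + 2 * u) + y * (1 + u)) / (1 + u) ^ 2 := by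
  rcases hu.eq_or_lt with hu0 | hu0
  · rw [← hu0, Eop_zero, g_of_nonneg hy]; ring
  · have h1 := der_g.res BM_g BM_g1 u y
    have h2 := der_g1.res BM_g1 BM_g2 u y
    have h3 : Eop u (fun z => (truncExpWeight z + 2 * g1 z) + g2 z) y = 0 := by
      have : Eop u (fun z => (truncExpWeight z + 2 * g1 z) + g2 z) y = ∫ x, (0:ℝ) ∂mu := by
        unfold Eop
        apply integral_congr_ae
        filter_upwards [ae_pos] with x hx
        have : 0 < y + u * x := by positivity
        rw [g_of_pos this, g1_of_pos this, g2_of_pos this]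
        ring
      rw [this]; simp
    rw [Eop_add (BM_g.add (BM_g1.smul 2)) BM_g2, Eop_add BM_g (BM_g1.smul 2), Eop_smul] at h3
    simp only at h3
    rw [g_of_nonneg hy] at h1
    rw [g1_of_nonneg hy] at h2
    have hA : Eop u g1 y = (Eop u truncExpWeight y - (1 + y) * Real.exp (-y)) / u := by
      rw [← h1]; field_simp
    have hB : Eop u g2 y = (Eop u g1 y - -y * Real.exp (-y)) / u := by
      rw [← h2]; field_simp
    rw [hB, hA] at h3
    have h1u : (1 + u) ≠ 0 := by positivity
    field_simp at h3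
    field_simp
    linear_combination h3

/-- closed form of `Eop u g` on `(-∞, 0]` -/
lemma op_g_nonpos {u y : ℝ} (hu : 0 < u) (hy : y ≤ 0) :
    Eop u truncExpWeight y = 1 - (u / (1 + u)) ^ 2 * Real.exp (y / u) := by
  have hx0 : 0 ≤ -y / u := div_nonneg (by linarith) hu.le
  rw [Eop_split BM_g u y hx0]
  have h1 : y + u * (-y / u) = 0 := by field_simp; ring
  rw [h1, op_g_nonneg hu.le le_rfl]
  have h2 : ∫ x in (0:ℝ)..(-y / u), Real.exp (-x) * truncExpWeight (y + u * x)
      = 1 - Real.exp (y / u) := by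
    have : ∫ x in (0:ℝ)..(-y / u), Real.exp (-x) * truncExpWeight (y + u * x)
        = ∫ x in (0:ℝ)..(-y / u), Real.exp (-x) := by
      rw [intervalIntegral.integral_of_le hx0, intervalIntegral.integral_of_le hx0]
      apply setIntegral_congr_fun measurableSet_Ioc
      intro x hx
      have h3 := hx.2
      rw [le_div_iff₀ hu] at h3
      simp only
      rw [g_of_nonpos (by nlinarith), mul_one]
    rw [this]
    have hd : ∀ x ∈ uIcc (0:ℝ) (-y / u), HasDerivAt (fun t => -Real.exp (-t)) (Real.exp (-x)) x := by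
      intro x _
      exact ((hasDerivAt_neg x).exp).neg.congr_deriv (by ring)
    rw [intervalIntegral.integral_eq_sub_of_hasDerivAt hd (by
      apply Continuous.intervalIntegrable; fun_prop)]
    have : -(-y / u) = y / u := by ring
    rw [this]
    simp
    ring
  rw [h2]
  have h3 : -(-y / u) = y / u := by ring
  rw [h3]
  have h1u : (1 + u) ≠ 0 := by positivity
  simp only [neg_zero, Real.exp_zero]
  field_simp
  ring

end Crest.Agent.H82Exp
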