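import Crest.Agent.H82Exp.Res

set_option autoImplicit false

open MeasureTheory Set Filter Topology

namespace Crest.Agent.H82Exp

/-- iterated operator -/
noncomputable def EL (L : List ℝ) (k : ℝ → ℝ) : ℝ → ℝ := L.foldr Eop k

@[simp] lemma EL_nil (k : ℝ → ℝ) : EL [] k = k := rfl
@[simp] lemma EL_cons (a : ℝ) (L : List ℝ) (k : ℝ → ℝ) : EL (a :: L) k = Eop a (EL L k) := rfl

lemma BM.list {k : ℝ → ℝ} (hk : BM k) (L : List ℝ) : BM (EL L k) := by
  induction L with
  | nil => exact hk
  | cons a L ih => exact ih.op a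

lemma EL_perm {k : ℝ → ℝ} (hk : BM k) {L L' : List ℝ} (h : L.Perm L') : EL L k = EL L' k := by
  induction h with
  | nil => rfl
  | cons x _ ih => simp [ih]
  | swap x y l => simp only [EL_cons]; exact Eop_comm (hk.list l) y x
  | trans _ _ ih1 ih2 => exact ih1.trans ih2

lemma Der.list {k k' : ℝ → ℝ} (hk : BM k) (hk' : BM k') (h : Der k k') (L : List ℝ) :
    Der (EL L k) (EL L k') := by
  induction L with
  | nil => exact h
  | cons a L ih => exact ih.op (hk.list L) (hk'.list L) a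

lemma EL_comm {k : ℝ → ℝ} (hk : BM k) (L : List ℝ) (a : ℝ) : EL L (Eop a k) = Eop a (EL L k) := by
  induction L with
  | nil => rfl
  | cons b L ih => simp only [EL_cons]; rw [ih, Eop_comm (hk.list L)]

lemma EL_append (L L' : List ℝ) (k : ℝ → ℝ) : EL (L ++ L') k = EL L (EL L' k) := by
  simp [EL]

lemma ae_pos : ∀ᵐ x ∂mu, (0 : ℝ) < x := by
  have : mu ≪ volume.restrict (Ioi (0 : ℝ)) := withDensity_absolutelyContinuous _ _
  exact this.ae_le (ae_restrict_mem measurableSet_Ioi)

lemma mu_Ioi : mu (Ioi (0 : ℝ)) = 1 := by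
  have h : mu (Ioi (0 : ℝ)) = mu univ := by
    apply measure_congr
    filter_upwards [ae_pos] with x hx
    show (x ∈ Ioi (0:ℝ)) = (x ∈ univ)
    simp only [mem_Ioi, mem_univ, eq_iff_iff, iff_true]
    exact hx
  rw [h, measure_univ]

lemma integral_mu_pos {f : ℝ → ℝ} (hf : Integrable f mu) (hpos : ∀ x, 0 < x → 0 < f x) :
    0 < ∫ x, f x ∂mu := by
  rw [integral_pos_iff_support_of_nonneg_ae]
  · have : Ioi (0 : ℝ) ⊆ Function.support f := fun x hx => (hpos x hx).ne'
    exact lt_of_lt_of_le (by rw [mu_Ioi]; exact one_pos) (measure_mono this)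
  · filter_upwards [ae_pos] with x hx using (hpos x hx).le
  · exact hf

lemma integral_mu_nonneg {f : ℝ → ℝ} (hpos : ∀ x, 0 < x → 0 ≤ f x) :
    0 ≤ ∫ x, f x ∂mu := by
  apply integral_nonneg_of_ae
  filter_upwards [ae_pos] with x hx using hpos x hx

lemma integral_mu_mono {f g : ℝ → ℝ} (hf : Integrable f mu) (hg : Integrable g mu)
    (h : ∀ x, 0 < x → f x ≤ g x) : ∫ x, f x ∂mu ≤ ∫ x, g x ∂mu := by
  apply integral_mono_ae hf hg
  filter_upwards [ae_pos] with x hx using h x hx

/-- the splitting (memoryless) identity -/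
lemma split_mu {f : ℝ → ℝ} (hf : BM f) {x0 : ℝ} (hx0 : 0 ≤ x0) :
    ∫ x, f x ∂mu = (∫ x in (0 : ℝ)..x0, Real.exp (-x) * f x)
      + Real.exp (-x0) * ∫ x, f (x0 + x) ∂mu := by
  obtain ⟨C, hC⟩ := hf.bdd
  have hint : IntegrableOn (fun x => Real.exp (-x) * f x) (Ioi 0) := by
    refine Integrable.mono' ((integrableOn_exp_neg_Ioi 0).const_mul C) ?_ ?_
    · exact ((Real.measurable_exp.comp measurable_neg).mul hf.meas).aestronglyMeasurable
    · refine Eventually.of_forall fun x => ?_
      rw [norm_mul, Real.norm_eq_abs, Real.norm_eq_abs, abs_of_pos (Real.exp_pos _), mul_comm]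
      exact mul_le_mul_of_nonneg_right (hC _) (Real.exp_pos _).le
  rw [integral_mu, integral_mu, intervalIntegral.integral_of_le hx0, ← integral_const_mul]
  have hu : Ioi (0 : ℝ) = Ioc 0 x0 ∪ Ioi x0 := (Ioc_union_Ioi_eq_Ioi hx0).symm
  rw [hu, setIntegral_union (Ioc_disjoint_Ioi le_rfl) measurableSet_Ioi
    (hint.mono_set Ioc_subset_Ioi_self) (hint.mono_set (Ioi_subset_Ioi hx0))]
  congr 1
  have h2 := (measurePreserving_add_left volume x0).setIntegral_preimage_emb
    (measurableEmbedding_addLeft x0) (fun x => Real.exp (-x) * f x) (Ioi x0)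
  rw [preimage_const_add_Ioi, sub_self] at h2
  rw [← h2, ← hu]
  congr 1
  funext x
  rw [neg_add, Real.exp_add]
  ring

lemma BM.comp_affine {k : ℝ → ℝ} (hk : BM k) (y c : ℝ) : BM (fun x => k (y + c * x)) := by
  obtain ⟨C, hC⟩ := hk.bdd
  exact ⟨hk.meas.comp (by fun_prop), C, fun x => hC _⟩

lemma Eop_split {k : ℝ → ℝ} (hk : BM k) (c y : ℝ) {x0 : ℝ} (hx0 : 0 ≤ x0) :
    Eop c k y = (∫ x in (0 : ℝ)..x0, Real.exp (-x) * k (y + c * x))
      + Real.exp (-x0) * Eop c k (y + c * x0) := by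
  have := split_mu (hk.comp_affine y c) hx0
  unfold Eop
  rw [this]
  congr 3
  funext x
  congr 1
  ring

/-- strict single crossing -/
def SC (k : ℝ → ℝ) : Prop := ∀ y y', y < y' → 0 ≤ k y → 0 < k y'

/-- weak single crossing -/
def WC (k : ℝ → ℝ) : Prop := ∀ y y', y < y' → 0 < k y → 0 ≤ k y'

lemma intInt_exp {k : ℝ → ℝ} (hk : BM k) (c y a b : ℝ) :
    IntervalIntegrable (fun x => Real.exp (-x) * k (y + c * x)) volume a b := by
  have h1 := (hk.comp_affine y c).intervalIntegrable a b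
  exact h1.continuousOn_mul (by fun_prop)

lemma Eop_pos {k : ℝ → ℝ} (hk : BM k) {c y : ℝ} (h : ∀ x, 0 < x → 0 < k (y + c * x)) :
    0 < Eop c k y :=
  integral_mu_pos (hk.integrable_comp (by fun_prop)) h

lemma Eop_neg {k : ℝ → ℝ} (hk : BM k) {c y : ℝ} (h : ∀ x, 0 < x → k (y + c * x) < 0) :
    Eop c k y < 0 := by
  have h1 : 0 < Eop c (fun z => -1 * k z) y :=
    Eop_pos (hk.smul (-1)) (fun x hx => by have := h x hx; linarith)
  rw [Eop_smul] at h1
  linarith

lemma int_pos {k : ℝ → ℝ} (hk : BM k) {c y x0 : ℝ} (hx0 : 0 < x0)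
    (h : ∀ x, 0 < x → x < x0 → 0 < k (y + c * x)) :
    0 < ∫ x in (0 : ℝ)..x0, Real.exp (-x) * k (y + c * x) := by
  apply intervalIntegral.intervalIntegral_pos_of_pos_on (intInt_exp hk c y 0 x0) _ hx0
  intro x hx
  exact mul_pos (Real.exp_pos _) (h x hx.1 hx.2)

lemma int_neg {k : ℝ → ℝ} (hk : BM k) {c y x0 : ℝ} (hx0 : 0 < x0)
    (h : ∀ x, 0 < x → x < x0 → k (y + c * x) < 0) :
    (∫ x in (0 : ℝ)..x0, Real.exp (-x) * k (y + c * x)) < 0 := by
  have := int_pos (hk.smul (-1)) (c := c) (y := y) hx0 (fun x h1 h2 => by have := h x h1 h2; linarith)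
  have h2 : (∫ x in (0 : ℝ)..x0, Real.exp (-x) * (-1 * k (y + c * x)))
      = - ∫ x in (0 : ℝ)..x0, Real.exp (-x) * k (y + c * x) := by
    rw [← intervalIntegral.integral_neg]
    congr 1
    funext x
    ring
  linarith

lemma SC.op {k : ℝ → ℝ} (hk : BM k) (h : SC k) (c : ℝ) : SC (Eop c k) := by
  intro y y' hyy hy
  rcases lt_trichotomy c 0 with hc | hc | hc
  · -- c < 0
    set x0 := (y' - y) / (-c) with hx0
    have hx0' : 0 < x0 := div_pos (by linarith) (by linarith)
    have hyeq : y' + c * x0 = y := by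
      have hc' : c ≠ 0 := hc.ne
      have : c * x0 = -(y' - y) := by rw [hx0]; field_simp
      linarith
    have hs := Eop_split hk c y' hx0'.le
    rw [hyeq] at hs
    by_cases hky : 0 ≤ k y
    · have : 0 < ∫ x in (0 : ℝ)..x0, Real.exp (-x) * k (y' + c * x) := by
        apply int_pos hk hx0'
        intro x h1 h2
        apply h y _ _ hky
        nlinarith
      rw [hs]
      have := mul_nonneg (Real.exp_pos (-x0)).le hy
      linarith
    · exfalso
      push Not at hky
      have : Eop c k y < 0 := by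
        apply Eop_neg hk
        intro x hx
        by_contra hcon
        push Not at hcon
        have := h (y + c * x) y (by nlinarith) hcon
        linarith
      linarith
  · subst hc
    rw [Eop_zero] at *
    exact h y y' hyy hy
  · set x0 := (y' - y) / c with hx0
    have hx0' : 0 < x0 := div_pos (by linarith) hc
    have hyeq : y + c * x0 = y' := by
      rw [hx0]; field_simp; ring
    have hs := Eop_split hk c y hx0'.le
    rw [hyeq] at hs
    by_cases hky : 0 ≤ k y'
    · apply Eop_pos hk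
      intro x hx
      apply h y' _ _ hky
      nlinarith
    · push Not at hky
      have : (∫ x in (0 : ℝ)..x0, Real.exp (-x) * k (y + c * x)) < 0 := by
        apply int_neg hk hx0'
        intro x h1 h2
        by_contra hcon
        push Not at hcon
        have := h (y + c * x) y' (by nlinarith) hcon
        linarith
      have h3 : 0 < Real.exp (-x0) * Eop c k y' := by linarith
      exact (pos_iff_pos_of_mul_pos h3).mp (Real.exp_pos _)

lemma Eop_nonneg {k : ℝ → ℝ} {c y : ℝ} (h : ∀ x, 0 < x → 0 ≤ k (y + c * x)) :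
    0 ≤ Eop c k y :=
  integral_mu_nonneg h

lemma Eop_nonpos {k : ℝ → ℝ} {c y : ℝ} (h : ∀ x, 0 < x → k (y + c * x) ≤ 0) :
    Eop c k y ≤ 0 := by
  have h1 : 0 ≤ Eop c (fun z => -1 * k z) y :=
    Eop_nonneg (fun x hx => by have := h x hx; linarith)
  rw [Eop_smul] at h1
  linarith

lemma int_nonneg {k : ℝ → ℝ} {c y x0 : ℝ} (hx0 : 0 < x0)
    (h : ∀ x, 0 < x → x < x0 → 0 ≤ k (y + c * x)) :
    0 ≤ ∫ x in (0 : ℝ)..x0, Real.exp (-x) * k (y + c * x) := by
  rw [intervalIntegral.integral_of_le hx0.le, integral_Ioc_eq_integral_Ioo]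
  apply setIntegral_nonneg measurableSet_Ioo
  intro x hx
  exact mul_nonneg (Real.exp_pos _).le (h x hx.1 hx.2)

lemma int_nonpos {k : ℝ → ℝ} {c y x0 : ℝ} (hx0 : 0 < x0)
    (h : ∀ x, 0 < x → x < x0 → k (y + c * x) ≤ 0) :
    (∫ x in (0 : ℝ)..x0, Real.exp (-x) * k (y + c * x)) ≤ 0 := by
  rw [intervalIntegral.integral_of_le hx0.le, integral_Ioc_eq_integral_Ioo]
  apply setIntegral_nonpos measurableSet_Ioo
  intro x hx
  exact mul_nonpos_of_nonneg_of_nonpos (Real.exp_pos _).le (h x hx.1 hx.2)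

lemma WC.op {k : ℝ → ℝ} (hk : BM k) (h : WC k) (c : ℝ) : WC (Eop c k) := by
  intro y y' hyy hy
  by_contra hneg
  push Not at hneg
  rcases lt_trichotomy c 0 with hc | hc | hc
  · set x0 := (y' - y) / (-c) with hx0
    have hx0' : 0 < x0 := div_pos (by linarith) (by linarith)
    have hyeq : y' + c * x0 = y := by
      have hc' : c ≠ 0 := hc.ne
      have : c * x0 = -(y' - y) := by rw [hx0]; field_simp
      linarith
    have hs := Eop_split hk c y' hx0'.le
    rw [hyeq] at hs
    have hp := mul_pos (Real.exp_pos (-x0)) hy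
    have hi : (∫ x in (0 : ℝ)..x0, Real.exp (-x) * k (y' + c * x)) < 0 := by linarith
    -- some point of `(y, y')` has `k < 0`
    have : ∃ x, 0 < x ∧ x < x0 ∧ k (y' + c * x) < 0 := by
      by_contra hcon
      push Not at hcon
      have := int_nonneg (k := k) (c := c) (y := y') hx0' hcon
      linarith
    obtain ⟨x, h1, h2, h3⟩ := this
    have : Eop c k y ≤ 0 := by
      apply Eop_nonpos
      intro z hz
      by_contra hcon
      push Not at hcon
      have := h (y + c * z) (y' + c * x) (by nlinarith) hcon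
      linarith
    linarith
  · subst hc
    rw [Eop_zero] at *
    have := h y y' hyy hy
    linarith
  · set x0 := (y' - y) / c with hx0
    have hx0' : 0 < x0 := div_pos (by linarith) hc
    have hyeq : y + c * x0 = y' := by
      rw [hx0]; field_simp; ring
    have hs := Eop_split hk c y hx0'.le
    rw [hyeq] at hs
    have hp := mul_pos (Real.exp_pos (-x0)) (neg_pos.mpr hneg)
    have hi : 0 < (∫ x in (0 : ℝ)..x0, Real.exp (-x) * k (y + c * x)) := by linarith
    have : ∃ x, 0 < x ∧ x < x0 ∧ 0 < k (y + c * x) := by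
      by_contra hcon
      push Not at hcon
      have := int_nonpos (k := k) (c := c) (y := y) hx0' hcon
      linarith
    obtain ⟨x, h1, h2, h3⟩ := this
    have : 0 ≤ Eop c k y' := by
      apply Eop_nonneg
      intro z hz
      exact h (y + c * x) _ (by nlinarith) h3
    linarith

lemma SC.list {k : ℝ → ℝ} (hk : BM k) (h : SC k) (L : List ℝ) : SC (EL L k) := by
  induction L with
  | nil => exact h
  | cons a L ih => exact ih.op (hk.list L) a

lemma WC.list {k : ℝ → ℝ} (hk : BM k) (h : WC k) (L : List ℝ) : WC (EL L k) := by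
  induction L with
  | nil => exact h
  | cons a L ih => exact ih.op (hk.list L) a

/-- The key contradiction: if `A(p1,-v)(s) = 0` and `A(p1,p2)(s) ≤ 0`, impossible. -/
lemma key_contra {k0 k : ℝ → ℝ} (hk0 : BM k0) (hk : BM k) (hd : Der k0 k) (hsc : SC k)
    {p1 p2 v s : ℝ} (hp2 : 0 < p2) (hv : 0 < v)
    (h1 : 0 ≤ Eop p1 (Eop (-v) k) s) (h1' : Eop p1 (Eop (-v) k) s ≤ 0)
    (h2 : Eop p1 (Eop p2 k) s ≤ 0) : False := by
  have hK : SC (Eop p1 (Eop (-v) k)) := (hsc.op hk _).op (hk.op _) _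
  have hB : 0 < Eop p2 (Eop p1 (Eop (-v) k)) s := by
    apply Eop_pos ((hk.op _).op _)
    intro x hx
    exact hK s _ (by nlinarith) h1
  have hres := (hd.op hk0 hk p1).resolvent (hk0.op p1) (hk.op p1) p2 (-v) s
  rw [Eop_comm hk p1 (-v)] at hB h1' 
  rw [Eop_comm hk p1 p2] at h2
  nlinarith [mul_pos (add_pos hp2 hv) hB, mul_nonneg hv.le (neg_nonneg.mpr h1'),
    mul_nonneg hp2.le (neg_nonneg.mpr h2)]

end Crest.Agent.H82Exp
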