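import Crest.Agent.H82Exp.Base

set_option autoImplicit false

open MeasureTheory Set Filter Topology
open Crest.AlgGeometry (truncExpWeight)

namespace Crest.Agent.H82Exp

lemma Der.hasDerivAt {k k' : ℝ → ℝ} (h : Der k k') (hc : Continuous k') (y : ℝ) :
    HasDerivAt k (k' y) y := by
  have h1 : k = fun z => k 0 + ∫ t in (0:ℝ)..z, k' t := by
    funext z; rw [← h 0 z]; ring
  rw [h1]
  apply HasDerivAt.const_add
  exact intervalIntegral.integral_hasDerivAt_right (hc.intervalIntegrable _ _)
    hc.aestronglyMeasurable.stronglyMeasurableAtFilter hc.continuousAt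

lemma expo_upper {Φ Φ1 : ℝ → ℝ} (hd : ∀ y, HasDerivAt Φ (Φ1 y) y) {κ y0 : ℝ}
    (h : ∀ y, y0 < y → Φ1 y ≤ κ * Φ y) (y : ℝ) (hy : y0 ≤ y) :
    Φ y ≤ Φ y0 * Real.exp (κ * (y - y0)) := by
  have hanti : AntitoneOn (fun t => Φ t * Real.exp (-κ * (t - y0))) (Ici y0) := by
    apply antitoneOn_of_hasDerivWithinAt_nonpos (convex_Ici y0) 
      (f' := fun t => Φ1 t * Real.exp (-κ * (t - y0)) + Φ t * (Real.exp (-κ * (t - y0)) * (-κ)))
    · apply Continuous.continuousOn
      have : Continuous Φ := continuous_iff_continuousAt.mpr fun x => (hd x).continuousAt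
      fun_prop
    · intro t ht
      apply HasDerivAt.hasDerivWithinAt
      apply (hd t).mul
      have : HasDerivAt (fun t => -κ * (t - y0)) (-κ * 1) t :=
        ((hasDerivAt_id t).sub_const y0).const_mul (-κ)
      rw [mul_one] at this
      exact this.exp
    · intro t ht
      rw [interior_Ici, mem_Ioi] at ht
      have := h t ht
      have he := Real.exp_pos (-κ * (t - y0))
      nlinarith
  have := hanti (mem_Ici.mpr le_rfl) (mem_Ici.mpr hy) hy
  simp only [sub_self, mul_zero, Real.exp_zero, mul_one] at this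
  have he : Real.exp (-κ * (y - y0)) * Real.exp (κ * (y - y0)) = 1 := by
    rw [← Real.exp_add]; simp
  calc Φ y = (Φ y * Real.exp (-κ * (y - y0))) * Real.exp (κ * (y - y0)) := by
        rw [mul_assoc, he, mul_one]
    _ ≤ Φ y0 * Real.exp (κ * (y - y0)) := mul_le_mul_of_nonneg_right this (Real.exp_pos _).le

lemma expo_lower {Φ Φ1 : ℝ → ℝ} (hd : ∀ y, HasDerivAt Φ (Φ1 y) y) {κ y0 : ℝ}
    (h : ∀ y, y < y0 → κ * Φ y ≤ Φ1 y) (y : ℝ) (hy : y ≤ y0) :
    Φ y ≤ Φ y0 * Real.exp (κ * (y - y0)) := by
  have hmono : MonotoneOn (fun t => Φ t * Real.exp (-κ * (t - y0))) (Iic y0) := by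
    apply monotoneOn_of_hasDerivWithinAt_nonneg (convex_Iic y0) 
      (f' := fun t => Φ1 t * Real.exp (-κ * (t - y0)) + Φ t * (Real.exp (-κ * (t - y0)) * (-κ)))
    · apply Continuous.continuousOn
      have : Continuous Φ := continuous_iff_continuousAt.mpr fun x => (hd x).continuousAt
      fun_prop
    · intro t ht
      apply HasDerivAt.hasDerivWithinAt
      apply (hd t).mul
      have : HasDerivAt (fun t => -κ * (t - y0)) (-κ * 1) t :=
        ((hasDerivAt_id t).sub_const y0).const_mul (-κ)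
      rw [mul_one] at this
      exact this.exp
    · intro t ht
      rw [interior_Iic, mem_Iio] at ht
      have := h t ht
      have he := Real.exp_pos (-κ * (t - y0))
      nlinarith
  have := hmono (mem_Iic.mpr hy) (mem_Iic.mpr le_rfl) hy
  simp only [sub_self, mul_zero, Real.exp_zero, mul_one] at this
  have he : Real.exp (-κ * (y - y0)) * Real.exp (κ * (y - y0)) = 1 := by
    rw [← Real.exp_add]; simp
  calc Φ y = (Φ y * Real.exp (-κ * (y - y0))) * Real.exp (κ * (y - y0)) := by
        rw [mul_assoc, he, mul_one]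
    _ ≤ Φ y0 * Real.exp (κ * (y - y0)) := mul_le_mul_of_nonneg_right this (Real.exp_pos _).le

/-- log-concave tangent bound -/
lemma tangent {Φ Φ1 : ℝ → ℝ} (hd : ∀ y, HasDerivAt Φ (Φ1 y) y)
    (hwc : ∀ κ, WC (fun y => κ * Φ y - Φ1 y)) {y0 : ℝ} (h0 : 0 < Φ y0) (y : ℝ) :
    Φ y ≤ Φ y0 * Real.exp (Φ1 y0 / Φ y0 * (y - y0)) := by
  set κ := Φ1 y0 / Φ y0 with hκ
  have hκ' : κ * Φ y0 = Φ1 y0 := by rw [hκ]; field_simp
  rcases le_total y0 y with hy | hy
  · have h1 : ∀ ε : ℝ, 0 < ε → Φ y ≤ Φ y0 * Real.exp ((κ + ε) * (y - y0)) := by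
      intro ε hε
      apply expo_upper hd _ y hy
      intro z hz
      have := hwc (κ + ε) y0 z hz (by simp only; nlinarith [mul_pos hε h0])
      simp only at this
      linarith
    have hlim : Tendsto (fun ε : ℝ => Φ y0 * Real.exp ((κ + ε) * (y - y0))) (𝓝[>] 0)
        (𝓝 (Φ y0 * Real.exp ((κ + 0) * (y - y0)))) := by
      apply Tendsto.mono_left _ nhdsWithin_le_nhds
      apply Continuous.tendsto
      fun_prop
    rw [add_zero] at hlim
    apply ge_of_tendsto hlim
    filter_upwards [self_mem_nhdsWithin] with ε hε using h1 ε hε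
  · have h1 : ∀ ε : ℝ, 0 < ε → Φ y ≤ Φ y0 * Real.exp ((κ - ε) * (y - y0)) := by
      intro ε hε
      apply expo_lower hd _ y hy
      intro z hz
      by_contra hcon
      push Not at hcon
      have := hwc (κ - ε) z y0 hz (by simp only; linarith)
      simp only at this
      nlinarith [mul_pos hε h0]
    have hlim : Tendsto (fun ε : ℝ => Φ y0 * Real.exp ((κ - ε) * (y - y0))) (𝓝[>] 0)
        (𝓝 (Φ y0 * Real.exp ((κ - 0) * (y - y0)))) := by
      apply Tendsto.mono_left _ nhdsWithin_le_nhds
      apply Continuous.tendsto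
      fun_prop
    rw [sub_zero] at hlim
    apply ge_of_tendsto hlim
    filter_upwards [self_mem_nhdsWithin] with ε hε using h1 ε hε

/-- `h0` is the antiderivative of `1 - g`. -/
noncomputable def h0 (y : ℝ) : ℝ := if y ≤ 0 then 0 else y - 2 + (2 + y) * Real.exp (-y)

lemma BM_1g : BM (fun y => 1 - truncExpWeight y) := (BM.const 1).sub BM_g

lemma der_h0 : Der h0 (fun y => 1 - truncExpWeight y) := by
  refine der_trunc (G := fun t => t - 2 + (2 + t) * Real.exp (-t))
    (G' := fun t => 1 - (1 + t) * Real.exp (-t)) BM_1g ?_ (by fun_prop) ?_ ?_ ?_ ?_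
  · intro t
    have h1 : HasDerivAt (fun t : ℝ => 2 + t) 1 t := (hasDerivAt_id t).const_add 2
    have h2 : HasDerivAt (fun t : ℝ => Real.exp (-t)) (Real.exp (-t) * (-1)) t :=
      (hasDerivAt_neg t).exp
    have h3 : HasDerivAt (fun t : ℝ => t - 2) 1 t := (hasDerivAt_id t).sub_const 2
    exact (h3.add (h1.mul h2)).congr_deriv (by ring)
  · intro y hy; simp [h0, hy]
  · intro y hy; simp [h0, not_le.mpr hy]
  · intro y hy; rw [g_of_nonpos hy]; ring
  · intro y hy; rw [g_of_pos hy]

lemma h0_ge (w : ℝ) : w - 2 ≤ h0 w := by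
  unfold h0
  split_ifs with h
  · linarith
  · push Not at h
    have : 0 ≤ (2 + w) * Real.exp (-w) := by positivity
    linarith

lemma h0_le (w : ℝ) : h0 w ≤ max w 0 := by
  unfold h0
  split_ifs with h
  · exact le_max_right _ _
  · push Not at h
    have h1 := one_add_mul_exp_le w
    have h2 : Real.exp (-w) ≤ 1 := Real.exp_le_one_iff.mpr (by linarith)
    apply le_trans _ (le_max_left _ _)
    nlinarith

lemma J_op {k : ℝ → ℝ} (hk : BM k) (c : ℝ) {a b : ℝ} (hab : a ≤ b) (z : ℝ) :
    ∫ t in a..b, Eop c k (t + z) = Eop c (fun z => ∫ t in a..b, k (t + z)) z := by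
  simp_rw [intervalIntegral.integral_of_le hab]
  unfold Eop
  rw [integral_integral_swap]
  · congr 1
    funext x
    congr 1
    funext t
    congr 1
    ring
  · exact hk.integrable_comp (ν := (volume.restrict (Ioc a b)).prod mu)
      (φ := fun p : ℝ × ℝ => p.1 + z + c * p.2) (by fun_prop)

lemma J_BM {k : ℝ → ℝ} (hk : BM k) {a b : ℝ} (hab : a ≤ b) :
    BM (fun z => ∫ t in a..b, k (t + z)) := by
  constructor
  · simp_rw [intervalIntegral.integral_of_le hab]
    have : StronglyMeasurable (fun p : ℝ × ℝ => k (p.2 + p.1)) :=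
      (hk.meas.comp (by fun_prop)).stronglyMeasurable
    exact this.integral_prod_right'.measurable
  · obtain ⟨C, hC⟩ := hk.bdd
    refine ⟨C * |b - a|, fun z => ?_⟩
    have := intervalIntegral.norm_integral_le_of_norm_le_const (a := a) (b := b)
      (f := fun t => k (t + z)) (C := C) (fun x _ => by simpa using hC _)
    simpa using this

lemma J_list {k : ℝ → ℝ} (hk : BM k) (L : List ℝ) {a b : ℝ} (hab : a ≤ b) (z : ℝ) :
    ∫ t in a..b, EL L k (t + z) = EL L (fun z => ∫ t in a..b, k (t + z)) z := by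
  induction L generalizing z with
  | nil => rfl
  | cons c L ih =>
    simp only [EL_cons]
    rw [J_op (hk.list L) c hab]
    congr 1
    funext z
    exact ih z

lemma mean_bound (L : List ℝ) (hL : L.sum = 0) {M y1 : ℝ} (hM : 0 < M) (h1 : -M ≤ y1) :
    y1 - 2 - (L.map (fun c => c ^ 2)).sum / (4 * M)
      ≤ ∫ t in (-M)..y1, EL L (fun y => 1 - truncExpWeight y) t := by
  have h2 := J_list BM_1g L h1 0
  simp only [add_zero] at h2
  rw [h2]
  have h3 := EL_quad (J_BM BM_1g h1) (α := y1 - 2) (β := 1) (γ := 1 / (4 * M)) (by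
    intro z
    have h4 : ∫ t in (-M)..y1, (1 - truncExpWeight (t + z)) = h0 (y1 + z) - h0 (-M + z) := by
      rw [der_h0 (-M + z) (y1 + z)]
      exact intervalIntegral.integral_comp_add_right (fun y => 1 - truncExpWeight y) z
    rw [h4]
    have h5 := h0_ge (y1 + z)
    have h6 := h0_le (-M + z)
    have h7 : max (-M + z) 0 ≤ 1 / (4 * M) * z ^ 2 := by
      apply max_le
      · have : 0 ≤ 1 / (4 * M) * (z - 2 * M) ^ 2 := by positivity
        have e : 1 / (4 * M) * (z - 2 * M) ^ 2 = 1 / (4 * M) * z ^ 2 - z + M := by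
          field_simp; ring
        linarith
      · positivity
    linarith) L 0
  rw [hL] at h3
  simp only [add_zero, mul_zero, ne_eq, OfNat.ofNat_ne_zero, not_false_eq_true, zero_pow,
    zero_add] at h3
  calc _ = y1 - 2 - 1 / (4 * M) * (L.map (fun c => c ^ 2)).sum := by ring
    _ ≤ _ := h3

/-- Grünbaum-type bound -/
lemma grunbaum (L : List ℝ) (hL : L.sum = 0) :
    Real.exp (-1) ≤ EL L (fun y => 1 - truncExpWeight y) 2 := by
  set Φ := EL L (fun y => 1 - truncExpWeight y) with hΦ
  set Φ1 := fun y => -1 * EL L g1 y with hΦ1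
  have hneg : EL L (fun y => -1 * g1 y) = Φ1 := EL_smul g1 (-1) L
  have hder0 : Der (fun y => 1 - truncExpWeight y) (fun y => -1 * g1 y) := by
    intro y z
    rw [intervalIntegral.integral_const_mul, ← der_g y z]
    ring
  have hder : Der Φ Φ1 := by
    rw [← hneg]; exact hder0.list BM_1g (BM_g1.smul (-1)) L
  have hc1 : Continuous Φ1 := (continuous_list BM_g1 cont_g1 L).const_mul (-1)
  have hd : ∀ y, HasDerivAt Φ (Φ1 y) y := fun y => hder.hasDerivAt hc1 y
  have hwc : ∀ κ, WC (fun y => κ * Φ y - Φ1 y) := by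
    intro κ
    have h1 := (WC_base κ).list ((BM_1g.smul κ).add BM_g1) L
    have h2 : EL L (fun y => κ * (1 - truncExpWeight y) + g1 y) = fun y => κ * Φ y - Φ1 y := by
      rw [EL_add (BM_1g.smul κ) BM_g1, EL_smul]
      funext y
      simp only [hΦ1]
      ring
    rwa [h2] at h1
  have hpos := (EL_pos BM_1g (fun y => by linarith [g_le_one y]) (fun y hy => by
    rw [g_of_pos hy]
    have h := Real.add_one_lt_exp hy.ne'
    have h2 := mul_lt_mul_of_pos_right h (Real.exp_pos (-y))
    rw [← Real.exp_add, add_neg_cancel, Real.exp_zero] at h2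
    linarith) L).2 2 (by norm_num)
  have hpos1 : 0 < Φ1 2 := by
    rw [← hneg]
    exact (EL_pos (BM_g1.smul (-1)) (fun y => by linarith [g1_nonpos y])
      (fun y hy => by linarith [g1_neg hy]) L).2 2 (by norm_num)
  have hΦ2 : 0 < Φ 2 := hpos
  have hle1 : Φ 2 ≤ 1 := by
    have := EL_bound (C := 1) (k := fun y => 1 - truncExpWeight y) (fun y => by
      rw [abs_le]; constructor <;> linarith [g_le_one y, g_nonneg y]) L 2
    exact (abs_le.mp this).2
  set κ := Φ1 2 / Φ 2 with hκ
  have hκ0 : 0 < κ := div_pos hpos1 hΦ2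
  have htan := fun y => tangent hd hwc hΦ2 y
  set y1 := 2 - Real.log (Φ 2) / κ with hy1
  have hlog : Real.log (Φ 2) ≤ 0 := Real.log_nonpos hΦ2.le hle1
  have hy12 : 2 ≤ y1 := by
    have : Real.log (Φ 2) / κ ≤ 0 := div_nonpos_of_nonpos_of_nonneg hlog hκ0.le
    linarith
  have hexp : ∀ t, Φ 2 * Real.exp (κ * (t - 2)) = Real.exp (κ * (t - y1)) := by
    intro t
    conv_lhs => rw [← Real.exp_log hΦ2]
    rw [← Real.exp_add]
    congr 1
    rw [hy1]; field_simp; ring
  have hcΦ : Continuous Φ := continuous_list BM_1g (by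
    exact continuous_const.sub cont_g) L
  have hub : ∀ M : ℝ, 0 < M → ∫ t in (-M)..y1, Φ t ≤ 1 / κ := by
    intro M hM
    have h1 : ∫ t in (-M)..y1, Φ t ≤ ∫ t in (-M)..y1, Real.exp (κ * (t - y1)) := by
      apply intervalIntegral.integral_mono_on (by linarith) (hcΦ.intervalIntegrable _ _)
        ((by fun_prop : Continuous fun t => Real.exp (κ * (t - y1))).intervalIntegrable _ _)
      intro t _
      rw [← hexp t]
      exact htan t
    have h2 : ∫ t in (-M)..y1, Real.exp (κ * (t - y1))
        = (1 - Real.exp (κ * (-M - y1))) / κ := by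
      have hdd : ∀ x ∈ uIcc (-M) y1, HasDerivAt (fun t => Real.exp (κ * (t - y1)) / κ)
          (Real.exp (κ * (x - y1))) x := by
        intro x _
        have : HasDerivAt (fun t => κ * (t - y1)) (κ * 1) x :=
          ((hasDerivAt_id x).sub_const y1).const_mul κ
        have := (this.exp).div_const κ
        refine this.congr_deriv ?_
        field_simp
      rw [intervalIntegral.integral_eq_sub_of_hasDerivAt hdd
        ((by fun_prop : Continuous fun t => Real.exp (κ * (t - y1))).intervalIntegrable _ _)]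
      simp only [sub_self, mul_zero, Real.exp_zero]
      ring
    rw [h2] at h1
    refine h1.trans ?_
    apply div_le_div_of_nonneg_right _ hκ0.le
    linarith [Real.exp_pos (κ * (-M - y1))]
  have hfin : y1 - 2 ≤ 1 / κ := by
    set Q := (L.map (fun c => c ^ 2)).sum with hQ
    have h1 : ∀ M : ℝ, 0 < M → y1 - 2 - Q / (4 * M) ≤ 1 / κ := by
      intro M hM
      exact (mean_bound L hL hM (by linarith)).trans (hub M hM)
    have hlim : Tendsto (fun M : ℝ => y1 - 2 - Q / (4 * M)) atTop (𝓝 (y1 - 2 - 0)) := by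
      apply Tendsto.sub tendsto_const_nhds
      apply Tendsto.div_atTop tendsto_const_nhds
      exact tendsto_id.const_mul_atTop (by norm_num)
    rw [sub_zero] at hlim
    apply le_of_tendsto hlim
    filter_upwards [eventually_gt_atTop 0] with M hM using h1 M hM
  have : -1 ≤ Real.log (Φ 2) := by
    have h1 : y1 - 2 = - Real.log (Φ 2) / κ := by rw [hy1]; ring
    rw [h1, div_le_div_iff_of_pos_right hκ0] at hfin
    linarith
  calc Real.exp (-1) ≤ Real.exp (Real.log (Φ 2)) := Real.exp_le_exp.mpr this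
    _ = Φ 2 := Real.exp_log hΦ2

lemma mem_perm {α : Type*} [DecidableEq α] {a : α} {L : List α} (h : a ∈ L) :
    L.Perm (L.erase a ++ [a]) :=
  (List.perm_cons_erase h).trans (List.perm_append_comm (l₁ := [a]))

/-- the bound for lists having a large coefficient -/
lemma large_bound (L : List ℝ) (hL : L.sum = 0) {c : ℝ} (hc : c ∈ L) (hc100 : 100 ≤ |c|) :
    EL L truncExpWeight (4 / 3) ≤ 1 - 4 / 9 * Real.exp (-(1 / 3)) := by
  have hc0 : c ≠ 0 := by
    intro h; rw [h] at hc100; norm_num at hc100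
  -- derivative bound
  have hb : ∀ y, |EL L g1 y| ≤ 1 / 100 := by
    intro y
    rw [EL_perm BM_g1 (mem_perm hc), EL_append]
    apply EL_bound
    intro z
    have h1 := der_g.res BM_g BM_g1 c z
    simp only [EL_cons, EL_nil]
    have h2 : |c * Eop c g1 z| ≤ 1 := by
      rw [h1, abs_le]
      have h3 : 0 ≤ Eop c truncExpWeight z := Eop_nonneg (fun x _ => g_nonneg _)
      have h4 : Eop c truncExpWeight z ≤ 1 := by
        have := EL_bound (C := 1) (k := truncExpWeight) (fun y => by
          rw [abs_le]; constructor <;> linarith [g_le_one y, g_nonneg y]) [c] z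
        exact (abs_le.mp this).2
      constructor <;> linarith [g_nonneg z, g_le_one z]
    rw [abs_mul] at h2
    have h5 := abs_nonneg (Eop c g1 z)
    nlinarith
  have hder := der_g.list BM_g BM_g1 L
  have h1 := hder (4/3) 2
  have h2 : |∫ t in (4/3:ℝ)..2, EL L g1 t| ≤ 1 / 100 * |2 - 4/3| := by
    have := intervalIntegral.norm_integral_le_of_norm_le_const (a := (4/3:ℝ)) (b := 2)
      (f := EL L g1) (C := 1/100) (fun x _ => by simpa using hb x)
    simpa using this
  have h3 : |(2:ℝ) - 4/3| = 2/3 := by norm_num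
  rw [h3, ← h1, abs_le] at h2
  have h4 := grunbaum L hL
  have h5 : EL L (fun y => 1 - truncExpWeight y) 2 = 1 - EL L truncExpWeight 2 := by
    have := congrFun (EL_add (BM.const 1) (BM_g.smul (-1)) L) 2
    simp only [EL_smul, EL_const] at this
    have e : (fun y => 1 - truncExpWeight y) = fun y => 1 + -1 * truncExpWeight y := by
      funext y; ring
    rw [e, this]; ring
  rw [h5] at h4
  have h6 : Real.exp (-(1/3)) ≤ 3 / 4 := by
    have := Real.add_one_le_exp (1/3 : ℝ)
    rw [Real.exp_neg, inv_le_comm₀ (Real.exp_pos _) (by norm_num)]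
    linarith
  have h7 : (0.36 : ℝ) ≤ Real.exp (-1) := by
    rw [Real.exp_neg, le_inv_comm₀ (by norm_num) (Real.exp_pos _)]
    have := Real.exp_one_lt_d9
    norm_num at this ⊢
    linarith
  linarith

end Crest.Agent.H82Exp
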