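import Mathlib

set_option autoImplicit false

open MeasureTheory Set Filter Topology

namespace Crest.Agent.H82Exp

/-- The standard exponential law on `ℝ`. -/
noncomputable def mu : Measure ℝ :=
  (volume.restrict (Ioi (0 : ℝ))).withDensity (fun x => ENNReal.ofReal (Real.exp (-x)))

lemma meas_dens : Measurable (fun x : ℝ => ENNReal.ofReal (Real.exp (-x))) := by fun_prop

lemma integral_mu (f : ℝ → ℝ) : ∫ x, f x ∂mu = ∫ x in Ioi (0 : ℝ), Real.exp (-x) * f x := by
  unfold mu
  rw [integral_withDensity_eq_integral_toReal_smul meas_dens (by simp)]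
  apply integral_congr_ae
  filter_upwards with x
  rw [ENNReal.toReal_ofReal (Real.exp_pos _).le, smul_eq_mul]

lemma integrable_mu_iff (f : ℝ → ℝ) :
    Integrable f mu ↔ IntegrableOn (fun x => f x * Real.exp (-x)) (Ioi 0) := by
  unfold mu
  rw [integrable_withDensity_iff meas_dens (by simp)]
  unfold IntegrableOn
  apply integrable_congr
  filter_upwards with x
  rw [ENNReal.toReal_ofReal (Real.exp_pos _).le]

instance : IsProbabilityMeasure mu := by
  constructor
  unfold mu
  rw [withDensity_apply _ MeasurableSet.univ, Measure.restrict_univ,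
    ← ofReal_integral_eq_lintegral_ofReal]
  · rw [integral_exp_neg_Ioi_zero]; simp
  · exact integrableOn_exp_neg_Ioi 0
  · filter_upwards with x using (Real.exp_pos _).le

/-- bounded measurable functions -/
structure BM (k : ℝ → ℝ) : Prop where
  meas : Measurable k
  bdd : ∃ C, ∀ y, |k y| ≤ C

/-- The operator `Eop c k y = E k (y + c X)`. -/
noncomputable def Eop (c : ℝ) (k : ℝ → ℝ) (y : ℝ) : ℝ := ∫ x, k (y + c * x) ∂mu

lemma BM.integrable_comp {k : ℝ → ℝ} (hk : BM k) {α : Type*} [MeasurableSpace α] {ν : Measure α}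
    [IsFiniteMeasure ν] {φ : α → ℝ} (hφ : Measurable φ) : Integrable (fun x => k (φ x)) ν := by
  obtain ⟨C, hC⟩ := hk.bdd
  exact Integrable.of_bound (hk.meas.comp hφ).aestronglyMeasurable C
    (Eventually.of_forall fun x => by simpa using hC (φ x))

lemma BM.op {k : ℝ → ℝ} (hk : BM k) (c : ℝ) : BM (Eop c k) := by
  constructor
  · have : StronglyMeasurable (fun p : ℝ × ℝ => k (p.1 + c * p.2)) :=
      (hk.meas.comp (by fun_prop)).stronglyMeasurable
    exact this.integral_prod_right'.measurable
  · obtain ⟨C, hC⟩ := hk.bdd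
    refine ⟨C, fun y => ?_⟩
    have := norm_integral_le_of_norm_le_const (μ := mu) (f := fun x => k (y + c * x)) (C := C)
      (Eventually.of_forall fun x => by simpa using hC _)
    simpa [Eop] using this

lemma Eop_comm {k : ℝ → ℝ} (hk : BM k) (c d : ℝ) : Eop c (Eop d k) = Eop d (Eop c k) := by
  funext y
  unfold Eop
  have h := integral_integral_swap (μ := mu) (ν := mu)
    (f := fun x x' => k (y + c * x + d * x')) (hk.integrable_comp (by fun_prop))
  rw [h]
  congr 1
  funext x
  congr 1
  funext x'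
  congr 1
  ring

lemma Eop_zero (k : ℝ → ℝ) : Eop 0 k = k := by
  funext y; simp [Eop]

lemma Eop_add {k l : ℝ → ℝ} (hk : BM k) (hl : BM l) (c : ℝ) :
    Eop c (fun y => k y + l y) = fun y => Eop c k y + Eop c l y := by
  funext y
  unfold Eop
  exact integral_add (hk.integrable_comp (by fun_prop)) (hl.integrable_comp (by fun_prop))

lemma Eop_sub {k l : ℝ → ℝ} (hk : BM k) (hl : BM l) (c : ℝ) :
    Eop c (fun y => k y - l y) = fun y => Eop c k y - Eop c l y := by
  funext y
  unfold Eop
  exact integral_sub (hk.integrable_comp (by fun_prop)) (hl.integrable_comp (by fun_prop))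

lemma Eop_smul (k : ℝ → ℝ) (c r : ℝ) :
    Eop c (fun y => r * k y) = fun y => r * Eop c k y := by
  funext y
  unfold Eop
  exact integral_const_mul _ _

lemma Eop_const (c r : ℝ) : Eop c (fun _ => r) = fun _ => r := by
  funext y; simp [Eop]

lemma BM.add {k l : ℝ → ℝ} (hk : BM k) (hl : BM l) : BM (fun y => k y + l y) := by
  obtain ⟨C, hC⟩ := hk.bdd
  obtain ⟨D, hD⟩ := hl.bdd
  exact ⟨hk.meas.add hl.meas, C + D, fun y => (abs_add_le _ _).trans (add_le_add (hC y) (hD y))⟩

lemma BM.smul {k : ℝ → ℝ} (hk : BM k) (r : ℝ) : BM (fun y => r * k y) := by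
  obtain ⟨C, hC⟩ := hk.bdd
  refine ⟨hk.meas.const_mul r, |r| * C, fun y => ?_⟩
  rw [abs_mul]
  exact mul_le_mul_of_nonneg_left (hC y) (abs_nonneg _)

lemma BM.sub {k l : ℝ → ℝ} (hk : BM k) (hl : BM l) : BM (fun y => k y - l y) := by
  have := hk.add (hl.smul (-1))
  simpa [sub_eq_add_neg] using this

lemma BM.const (r : ℝ) : BM (fun _ => r) := ⟨measurable_const, |r|, fun _ => le_rfl⟩

lemma Eop_mono {k l : ℝ → ℝ} (hk : BM k) (hl : BM l) (h : ∀ y, k y ≤ l y) (c y : ℝ) :
    Eop c k y ≤ Eop c l y := by
  unfold Eop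
  exact integral_mono (hk.integrable_comp (by fun_prop)) (hl.integrable_comp (by fun_prop))
    (fun x => h _)

/-- `k` is an absolutely continuous function with density `k'`. -/
def Der (k k' : ℝ → ℝ) : Prop := ∀ y z, k z - k y = ∫ t in y..z, k' t

lemma BM.intervalIntegrable {k : ℝ → ℝ} (hk : BM k) (a b : ℝ) :
    IntervalIntegrable k volume a b := by
  obtain ⟨C, hC⟩ := hk.bdd
  rw [intervalIntegrable_iff]
  exact Measure.integrableOn_of_bounded (M := C) (by simp) hk.meas.aestronglyMeasurable
    (Eventually.of_forall fun x => by simpa using hC x)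

lemma Der.op {k k' : ℝ → ℝ} (hk : BM k) (hk' : BM k') (h : Der k k') (c : ℝ) :
    Der (Eop c k) (Eop c k') := by
  have key : ∀ y z, y ≤ z → Eop c k z - Eop c k y = ∫ t in y..z, Eop c k' t := by
    intro y z hyz
    have h1 : Eop c k z - Eop c k y = ∫ x, (∫ t in y..z, k' (t + c * x)) ∂mu := by
      unfold Eop
      rw [← integral_sub (hk.integrable_comp (by fun_prop)) (hk.integrable_comp (by fun_prop))]
      congr 1
      funext x
      rw [h (y + c * x) (z + c * x), intervalIntegral.integral_comp_add_right]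
    rw [h1]
    simp_rw [intervalIntegral.integral_of_le hyz]
    unfold Eop
    rw [integral_integral_swap]
    have : IsFiniteMeasure (volume.restrict (Ioc y z)) := by infer_instance
    exact hk'.integrable_comp (ν := mu.prod (volume.restrict (Ioc y z)))
      (φ := fun p : ℝ × ℝ => p.2 + c * p.1) (by fun_prop)
  intro y z
  rcases le_total y z with hyz | hyz
  · exact key y z hyz
  · rw [intervalIntegral.integral_symm, ← key z y hyz]; ring

end Crest.Agent.H82Exp
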