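import Crest.Agent.H82Exp.Cross

set_option autoImplicit false

open MeasureTheory Set Filter Topology

namespace Crest.Agent.H82Exp

lemma symm_cons (N : ℕ) (p : ℝ × (Fin N → ℝ)) :
    (MeasurableEquiv.piFinSuccAbove (fun _ : Fin (N+1) => ℝ) 0).symm p
      = (Fin.cons p.1 p.2 : Fin (N+1) → ℝ) := by
  funext i
  refine Fin.cases ?_ (fun j => ?_) i
  · rfl
  · rfl

lemma rep_mu {k : ℝ → ℝ} (hk : BM k) : ∀ (N : ℕ) (a : Fin N → ℝ) (y : ℝ),
    ∫ x, k (y + ∑ i, a i * x i) ∂(Measure.pi fun _ : Fin N => mu) = EL (List.ofFn a) k y := by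
  intro N
  induction N with
  | zero => intro a y; simp [EL]
  | succ N ih =>
    intro a y
    rw [← ((measurePreserving_piFinSuccAbove (fun _ : Fin (N+1) => mu) 0).symm).integral_comp']
    simp_rw [symm_cons, Fin.sum_univ_succ, Fin.cons_succ, Fin.cons_zero]
    rw [integral_prod]
    · rw [List.ofFn_succ, EL_cons, Eop]
      congr 1
      funext x
      rw [← ih]
      congr 1
      funext z
      rw [add_assoc]
    · exact hk.integrable_comp (φ := fun p : ℝ × (Fin N → ℝ) =>
        y + (a 0 * p.1 + ∑ i : Fin N, a i.succ * p.2 i)) (by fun_prop)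

lemma integrable_exp_sum (N : ℕ) : Integrable (fun x : Fin N → ℝ => Real.exp (-∑ i, x i))
    (Measure.pi fun _ : Fin N => volume.restrict (Ioi (0 : ℝ))) := by
  have h : Integrable (fun x : Fin N → ℝ => ∏ i, Real.exp (-(x i)))
      (Measure.pi fun _ : Fin N => volume.restrict (Ioi (0 : ℝ))) :=
    Integrable.fintype_prod (fun _ => integrableOn_exp_neg_Ioi 0)
  convert h using 2 with x
  rw [← Finset.sum_neg_distrib, Real.exp_sum]

lemma rep_vol' {k : ℝ → ℝ} (hk : BM k) : ∀ (N : ℕ) (a : Fin N → ℝ) (y : ℝ),
    ∫ x, k (y + ∑ i, a i * x i) * Real.exp (-∑ i, x i)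
      ∂(Measure.pi fun _ : Fin N => volume.restrict (Ioi (0 : ℝ)))
      = EL (List.ofFn a) k y := by
  intro N
  induction N with
  | zero => intro a y; simp [EL, measureReal_def]
  | succ N ih =>
    intro a y
    rw [← ((measurePreserving_piFinSuccAbove
      (fun _ : Fin (N+1) => volume.restrict (Ioi (0 : ℝ))) 0).symm).integral_comp']
    simp_rw [symm_cons, Fin.sum_univ_succ, Fin.cons_succ, Fin.cons_zero]
    rw [integral_prod]
    · rw [List.ofFn_succ, EL_cons, Eop, integral_mu]
      congr 1
      funext x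
      rw [← ih, ← integral_const_mul]
      congr 1
      funext z
      rw [add_assoc, neg_add, Real.exp_add]
      ring
    · obtain ⟨C, hC⟩ := hk.bdd
      have h1 : Integrable (fun p : ℝ × (Fin N → ℝ) =>
          Real.exp (-p.1) * Real.exp (-∑ i, p.2 i))
          ((volume.restrict (Ioi (0 : ℝ))).prod
            (Measure.pi fun _ : Fin N => volume.restrict (Ioi (0 : ℝ)))) :=
        Integrable.mul_prod (integrableOn_exp_neg_Ioi 0) (integrable_exp_sum N)
      refine Integrable.mono' (h1.const_mul C) ?_ ?_
      · apply Measurable.aestronglyMeasurable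
        exact (hk.meas.comp (by fun_prop)).mul (by fun_prop)
      · refine Eventually.of_forall fun p => ?_
        rw [norm_mul, Real.norm_eq_abs, Real.norm_eq_abs, abs_of_pos (Real.exp_pos _), neg_add,
          Real.exp_add]
        exact mul_le_mul_of_nonneg_right (hC _) (by positivity)

lemma rep_vol {k : ℝ → ℝ} (hk : BM k) (N : ℕ) (a : Fin N → ℝ) (y : ℝ) :
    ∫ x in Set.pi Set.univ (fun _ : Fin N => Set.Ioi (0 : ℝ)),
      k (y + ∑ i, a i * x i) * Real.exp (-∑ i, x i)
      = EL (List.ofFn a) k y := by
  rw [← rep_vol' hk, volume_pi, Measure.restrict_pi_pi]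

lemma continuous_EL {k : ℝ → ℝ} (hk : BM k) (hc : Continuous k) (N : ℕ) (y : ℝ) :
    Continuous (fun a : Fin N → ℝ => EL (List.ofFn a) k y) := by
  obtain ⟨C, hC⟩ := hk.bdd
  have : (fun a : Fin N → ℝ => EL (List.ofFn a) k y)
      = fun a => ∫ x, k (y + ∑ i, a i * x i) ∂(Measure.pi fun _ : Fin N => mu) := by
    funext a; rw [rep_mu hk]
  rw [this]
  refine continuous_of_dominated (bound := fun _ => C) ?_ ?_ ?_ ?_
  · intro a
    exact (hk.meas.comp (by fun_prop)).aestronglyMeasurable
  · intro a
    exact Eventually.of_forall fun x => by simpa using hC _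
  · exact integrable_const _
  · refine Eventually.of_forall fun x => ?_
    exact hc.comp (by fun_prop)

lemma continuous_op {k : ℝ → ℝ} (hk : BM k) (hc : Continuous k) (c : ℝ) :
    Continuous (Eop c k) := by
  obtain ⟨C, hC⟩ := hk.bdd
  unfold Eop
  refine continuous_of_dominated (bound := fun _ => C) ?_ ?_ ?_ ?_
  · intro a
    exact (hk.meas.comp (by fun_prop)).aestronglyMeasurable
  · intro a
    exact Eventually.of_forall fun x => by simpa using hC _
  · exact integrable_const _
  · refine Eventually.of_forall fun x => ?_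
    exact hc.comp (by fun_prop)

lemma continuous_list {k : ℝ → ℝ} (hk : BM k) (hc : Continuous k) (L : List ℝ) :
    Continuous (EL L k) := by
  induction L with
  | nil => exact hc
  | cons a L ih => exact continuous_op (hk.list L) ih a

/-- Continuity in two coefficients. -/
lemma continuous_two {k : ℝ → ℝ} (hk : BM k) (hc : Continuous k) (y : ℝ) :
    Continuous (fun p : ℝ × ℝ => Eop p.1 (Eop p.2 k) y) := by
  have h := continuous_EL hk hc 2 y
  have h2 : Continuous (fun p : ℝ × ℝ => (![p.1, p.2] : Fin 2 → ℝ)) := by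
    fun_prop
  have h3 := h.comp h2
  convert h3 using 2 with p
  simp [EL]

lemma integral_id_mu : ∫ x, x ∂mu = 1 := by
  have h := fubini_exp (BM.const 1)
  simp only [intervalIntegral.integral_const, sub_zero, smul_eq_mul, mul_one] at h
  rw [integral_mu, h, integral_exp_neg_Ioi_zero]

lemma integrable_pow_mu (n : ℕ) : Integrable (fun x : ℝ => x ^ n) mu := by
  rw [integrable_mu_iff]
  have := Real.GammaIntegral_convergent (s := (n : ℝ) + 1) (by positivity)
  refine this.congr_fun ?_ measurableSet_Ioi
  intro x hx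
  simp only [add_sub_cancel_right, Real.rpow_natCast]
  ring

lemma integral_sq_mu : ∫ x, x ^ 2 ∂mu = 2 := by
  rw [integral_mu]
  have h := Real.Gamma_eq_integral (s := 3) (by norm_num)
  have h2 : Real.Gamma 3 = 2 := by
    have h := Real.Gamma_nat_eq_factorial 2
    have h3 : ((2 : ℕ) : ℝ) + 1 = 3 := by norm_num
    rw [h3] at h
    rw [h]
    norm_num [Nat.factorial]
  rw [h2] at h
  rw [h]
  apply setIntegral_congr_fun measurableSet_Ioi
  intro x hx
  simp only
  congr 1
  norm_num

/-- quadratic lower bound -/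
lemma EL_quad {k : ℝ → ℝ} (hk : BM k) {α β γ : ℝ} 
    (h : ∀ y, α + β * y - γ * y ^ 2 ≤ k y) (L : List ℝ) (y : ℝ) :
    α + β * (y + L.sum) - γ * ((y + L.sum) ^ 2 + (L.map (fun c => c ^ 2)).sum) ≤ EL L k y := by
  induction L generalizing y with
  | nil => simpa using h y
  | cons c L ih =>
    rw [EL_cons, Eop]
    set S := L.sum with hS
    set Q := (L.map (fun c => c ^ 2)).sum with hQ
    have hint : Integrable (fun x : ℝ => α + β * (y + c * x + S) - γ * ((y + c * x + S) ^ 2 + Q)) mu := by
      have h0 : Integrable (fun x : ℝ => (α + β * (y + S) - γ * ((y + S) ^ 2 + Q))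
        + (β * c - 2 * γ * (y + S) * c) * x ^ 1 - (γ * c ^ 2) * x ^ 2) mu :=
        (((integrable_const _).add ((integrable_pow_mu 1).const_mul _))).sub
          ((integrable_pow_mu 2).const_mul _)
      convert h0 using 2 with x
      ring
    have h1 : ∫ x, (α + β * (y + c * x + S) - γ * ((y + c * x + S) ^ 2 + Q)) ∂mu
        = α + β * (y + (c + S)) - γ * ((y + (c + S)) ^ 2 + (c ^ 2 + Q)) := by
      have h2 : ∀ x : ℝ, (α + β * (y + c * x + S) - γ * ((y + c * x + S) ^ 2 + Q))
        = (α + β * (y + S) - γ * ((y + S) ^ 2 + Q))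
        + (β * c - 2 * γ * (y + S) * c) * x - (γ * c ^ 2) * x ^ 2 := by intro x; ring
      simp_rw [h2]
      rw [integral_sub, integral_add, integral_const_mul, integral_const_mul, integral_id_mu,
        integral_sq_mu]
      · simp; ring
      · exact integrable_const _
      · simpa using (integrable_pow_mu 1).const_mul (β * c - 2 * γ * (y + S) * c)
      · exact (integrable_const _).add (by simpa using (integrable_pow_mu 1).const_mul (β * c - 2 * γ * (y + S) * c))
      · exact (integrable_pow_mu 2).const_mul _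
    simp only [List.sum_cons, List.map_cons]
    rw [← h1]
    exact integral_mono hint ((hk.list L).integrable_comp (by fun_prop)) (fun x => ih _)

/-- linear upper bound for lists with nonpositive entries -/
lemma EL_lin {k : ℝ → ℝ} (hk : BM k) {A B s : ℝ}
    (h : ∀ y, y ≤ s → k y ≤ A - B * y) (L : List ℝ) (hL : ∀ c ∈ L, c ≤ 0) (y : ℝ) (hy : y ≤ s) :
    EL L k y ≤ A - B * (y + L.sum) := by
  induction L generalizing y with
  | nil => simpa using h y hy
  | cons c L ih =>
    rw [EL_cons, Eop]
    have hc : c ≤ 0 := hL c (by simp)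
    have hint : Integrable (fun x : ℝ => A - B * (y + c * x + L.sum)) mu := by
      have h0 : Integrable (fun x : ℝ => (A - B * (y + L.sum)) - (B * c) * x ^ 1) mu :=
        (integrable_const _).sub ((integrable_pow_mu 1).const_mul _)
      convert h0 using 2 with x
      ring
    have h1 : ∫ x, (A - B * (y + c * x + L.sum)) ∂mu = A - B * (y + (c + L.sum)) := by
      have h2 : ∀ x : ℝ, A - B * (y + c * x + L.sum) = (A - B * (y + L.sum)) - (B * c) * x := by
        intro x; ring
      simp_rw [h2]
      rw [integral_sub, integral_const_mul, integral_id_mu]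
      · simp; ring
      · exact integrable_const _
      · simpa using (integrable_pow_mu 1).const_mul (B * c)
    simp only [List.sum_cons]
    rw [← h1]
    refine integral_mu_mono ((hk.list L).integrable_comp (by fun_prop)) hint (fun x hx => ?_)
    apply ih (fun c hc => hL c (by simp [hc]))
    nlinarith

lemma EL_bound {k : ℝ → ℝ} {C : ℝ} (hC : ∀ y, |k y| ≤ C) (L : List ℝ) (y : ℝ) :
    |EL L k y| ≤ C := by
  induction L generalizing y with
  | nil => exact hC y
  | cons c L ih =>
    rw [EL_cons, Eop]
    have := norm_integral_le_of_norm_le_const (μ := mu) (f := fun x => EL L k (y + c * x)) (C := C)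
      (Eventually.of_forall fun x => by simpa using ih _)
    simpa using this

lemma EL_add {k l : ℝ → ℝ} (hk : BM k) (hl : BM l) (L : List ℝ) :
    EL L (fun y => k y + l y) = fun y => EL L k y + EL L l y := by
  induction L with
  | nil => rfl
  | cons c L ih => simp only [EL_cons, ih]; rw [Eop_add (hk.list L) (hl.list L)]

lemma EL_smul (k : ℝ → ℝ) (r : ℝ) (L : List ℝ) :
    EL L (fun y => r * k y) = fun y => r * EL L k y := by
  induction L with
  | nil => rfl
  | cons c L ih => simp only [EL_cons, ih]; rw [Eop_smul]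

lemma EL_const (r : ℝ) (L : List ℝ) :
    EL L (fun _ => r) = fun _ => r := by
  induction L with
  | nil => rfl
  | cons c L ih => simp only [EL_cons, ih]; rw [Eop_const]

/-- positivity on `(0, ∞)` is preserved -/
lemma EL_pos {k : ℝ → ℝ} (hk : BM k) (h0 : ∀ y, 0 ≤ k y) (hp : ∀ y, 0 < y → 0 < k y)
    (L : List ℝ) : (∀ y, 0 ≤ EL L k y) ∧ (∀ y, 0 < y → 0 < EL L k y) := by
  induction L with
  | nil => exact ⟨h0, hp⟩
  | cons c L ih =>
    refine ⟨fun y => ?_, fun y hy => ?_⟩
    · exact Eop_nonneg (fun x _ => ih.1 _)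
    · rw [EL_cons]
      rcases le_or_gt 0 c with hc | hc
      · apply Eop_pos (hk.list L)
        intro x hx
        exact ih.2 _ (by positivity)
      · have hx0 : 0 < y / (-c) := div_pos hy (by linarith)
        rw [Eop_split (hk.list L) c y hx0.le]
        have h1 : 0 < ∫ x in (0 : ℝ)..(y / (-c)), Real.exp (-x) * EL L k (y + c * x) := by
          apply int_pos (hk.list L) hx0
          intro x h1 h2
          apply ih.2
          rw [lt_div_iff₀ (by linarith)] at h2
          nlinarith
        have h2 : 0 ≤ Real.exp (-(y / (-c))) * Eop c (EL L k) (y + c * (y / (-c))) :=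
          mul_nonneg (Real.exp_pos _).le (Eop_nonneg (fun x _ => ih.1 _))
        linarith

end Crest.Agent.H82Exp
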