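import Crest.Agent.H82Exp.Op

set_option autoImplicit false

open MeasureTheory Set Filter Topology

namespace Crest.Agent.H82Exp

lemma fubini_exp {φ : ℝ → ℝ} (hφ : BM φ) :
    ∫ x in Ioi (0 : ℝ), Real.exp (-x) * (∫ t in (0 : ℝ)..x, φ t)
      = ∫ x in Ioi (0 : ℝ), Real.exp (-x) * φ x := by
  set f : ℝ → ℝ → ℝ := fun x t => (Ici t).indicator (fun x => Real.exp (-x) * φ t) x with hf
  have hfm : Measurable (fun p : ℝ × ℝ => f p.1 p.2) := by
    have : (fun p : ℝ × ℝ => f p.1 p.2)
        = {p : ℝ × ℝ | p.2 ≤ p.1}.indicator (fun p => Real.exp (-p.1) * φ p.2) := by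
      funext p
      simp only [hf, indicator, mem_Ici]
      rfl
    rw [this]
    apply Measurable.indicator
    · exact (Real.measurable_exp.comp measurable_fst.neg).mul (hφ.meas.comp measurable_snd)
    · exact measurableSet_le measurable_snd measurable_fst
  obtain ⟨C, hC⟩ := hφ.bdd
  have hC0 : 0 ≤ C := (abs_nonneg _).trans (hC 0)
  have hexp2 : Integrable (fun x : ℝ => Real.exp (-(1 / 2) * x)) (volume.restrict (Ioi 0)) :=
    exp_neg_integrableOn_Ioi 0 (by norm_num)
  have hint : Integrable (Function.uncurry f)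
      ((volume.restrict (Ioi (0 : ℝ))).prod (volume.restrict (Ioi (0 : ℝ)))) := by
    refine Integrable.mono' ((hexp2.mul_prod hexp2).const_mul C) hfm.aestronglyMeasurable ?_
    refine Eventually.of_forall fun p => ?_
    simp only [Function.uncurry, hf, indicator, mem_Ici]
    split_ifs with h
    · rw [norm_mul, Real.norm_eq_abs, Real.norm_eq_abs, abs_of_pos (Real.exp_pos _), mul_comm]
      refine mul_le_mul (hC _) ?_ (Real.exp_pos _).le hC0
      rw [← Real.exp_add]
      apply Real.exp_le_exp.mpr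
      linarith
    · rw [norm_zero]; positivity
  have hswap := integral_integral_swap hint
  have h1 : ∀ x ∈ Ioi (0 : ℝ), Real.exp (-x) * (∫ t in (0 : ℝ)..x, φ t)
      = ∫ t in Ioi (0 : ℝ), f x t := by
    intro x hx
    have hx' : (0 : ℝ) ≤ x := le_of_lt hx
    rw [intervalIntegral.integral_of_le hx', ← integral_const_mul]
    have : (fun t => f x t) = (Iic x).indicator (fun t => Real.exp (-x) * φ t) := by
      funext t
      simp only [hf, indicator, mem_Ici, mem_Iic]
    rw [this, setIntegral_indicator measurableSet_Iic]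
    congr 1
  have h2 : ∀ t ∈ Ioi (0 : ℝ), (∫ x in Ioi (0 : ℝ), f x t) = Real.exp (-t) * φ t := by
    intro t ht
    simp only [hf]
    rw [setIntegral_indicator measurableSet_Ici]
    have : Ioi (0 : ℝ) ∩ Ici t = Ici t := by
      apply inter_eq_right.mpr
      intro x hx
      exact lt_of_lt_of_le (mem_Ioi.mp ht) (mem_Ici.mp hx)
    rw [this, integral_mul_const, integral_Ici_eq_integral_Ioi, integral_exp_neg_Ioi]
  rw [setIntegral_congr_fun measurableSet_Ioi h1, hswap,
    setIntegral_congr_fun measurableSet_Ioi h2]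

lemma Der.res {k k' : ℝ → ℝ} (hk : BM k) (hk' : BM k') (h : Der k k') (a y : ℝ) :
    a * Eop a k' y = Eop a k y - k y := by
  have h1 : Eop a k y - k y = ∫ x, (k (y + a * x) - k y) ∂mu := by
    rw [integral_sub (hk.integrable_comp (by fun_prop)) (integrable_const _)]
    simp [Eop]
  have h2 : ∀ x, k (y + a * x) - k y = ∫ t in (0:ℝ)..x, a * k' (y + a * t) := by
    intro x
    rw [h y (y + a * x), intervalIntegral.integral_const_mul,
      intervalIntegral.mul_integral_comp_add_mul]
    simp
  rw [h1, integral_mu]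
  simp_rw [h2]
  have hb : BM (fun t => a * k' (y + a * t)) := by
    obtain ⟨C, hC⟩ := hk'.bdd
    refine ⟨?_, |a| * C, fun t => ?_⟩
    · exact (hk'.meas.comp (by fun_prop)).const_mul a
    · rw [abs_mul]; exact mul_le_mul_of_nonneg_left (hC _) (abs_nonneg _)
  rw [fubini_exp hb, Eop, integral_mu, ← integral_const_mul]
  congr 1
  funext x
  ring

/-- resolvent identity, difference form -/
lemma Der.diff {k k' : ℝ → ℝ} (hk : BM k) (hk' : BM k') (h : Der k k') (a b y : ℝ) :
    (a - b) * Eop a (Eop b k') y = Eop a k y - Eop b k y := by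
  have ha : ∀ z, a * Eop a k' z = Eop a k z - k z := h.res hk hk' a
  have hb : ∀ z, b * Eop b k' z = Eop b k z - k z := h.res hk hk' b
  have h1 : a * Eop a (Eop b k') y = Eop b (Eop a k) y - Eop b k y := by
    rw [Eop_comm hk']
    have : (fun z => a * Eop a k' z) = fun z => Eop a k z - k z := funext ha
    have h3 := congrFun (Eop_smul (Eop a k') b a) y
    rw [← h3, this, Eop_sub (hk.op a) hk]
  have h2 : b * Eop a (Eop b k') y = Eop a (Eop b k) y - Eop a k y := by
    have : (fun z => b * Eop b k' z) = fun z => Eop b k z - k z := funext hb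
    have h3 := congrFun (Eop_smul (Eop b k') a b) y
    rw [← h3, this, Eop_sub (hk.op b) hk]
  rw [sub_mul, h1, h2, Eop_comm hk]
  ring

/-- resolvent identity for a function which is a derivative -/
lemma Der.resolvent {k k' : ℝ → ℝ} (hk : BM k) (hk' : BM k') (h : Der k k') (a b y : ℝ) :
    (a - b) * Eop a (Eop b k') y = a * Eop a k' y - b * Eop b k' y := by
  rw [h.diff hk hk', h.res hk hk', h.res hk hk']
  ring

/-- exact finite-difference formula -/
lemma Der.second {h h1 h2 : ℝ → ℝ} (hh : BM h) (hh1 : BM h1) (hh2 : BM h2) (d1 : Der h h1)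
    (d2 : Der h1 h2) (a b a' b' y : ℝ) (hs : a + b = a' + b') :
    Eop a (Eop b h) y - Eop a' (Eop b' h) y
      = (a' * b' - a * b) * Eop a (Eop b (Eop a' (Eop b' h2))) y := by
  -- T_a T_b h - T_a' T_b h
  have e1 : Eop a (Eop b h) y - Eop a' (Eop b h) y = (a - a') * Eop b (Eop a' (Eop a h1)) y := by
    have := (d1.op hh hh1 b).diff (hh.op b) (hh1.op b) a a' y
    rw [← this]
    congr 1
    rw [Eop_comm (hh1.op b) a a', Eop_comm hh1 a b, Eop_comm (hh1.op a) b a']
  have e2 : Eop a' (Eop b h) y - Eop a' (Eop b' h) y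
      = (b - b') * Eop b (Eop a' (Eop b' h1)) y := by
    have := (d1.op hh hh1 a').diff (hh.op a') (hh1.op a') b b' y
    rw [Eop_comm hh a' b, Eop_comm hh a' b', ← this]
    congr 1
    rw [Eop_comm hh1 b' a']
  have hb : b - b' = -(a - a') := by linarith
  have e3 : Eop b (Eop a' (Eop a h1)) y - Eop b (Eop a' (Eop b' h1)) y
      = (a - b') * Eop a (Eop b (Eop a' (Eop b' h2))) y := by
    have := ((d2.op hh1 hh2 a').op (hh1.op a') (hh2.op a') b).diff
      ((hh1.op a').op b) ((hh2.op a').op b) a b' y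
    have e4 : Eop a (Eop b (Eop a' h1)) y = Eop b (Eop a' (Eop a h1)) y := by
      rw [Eop_comm (hh1.op a') a b, Eop_comm hh1 a a']
    have e5 : Eop b' (Eop b (Eop a' h1)) y = Eop b (Eop a' (Eop b' h1)) y := by
      rw [Eop_comm (hh1.op a') b' b, Eop_comm hh1 b' a']
    have e6 : Eop a (Eop b' (Eop b (Eop a' h2))) y = Eop a (Eop b (Eop a' (Eop b' h2))) y := by
      rw [Eop_comm (hh2.op a') b' b, Eop_comm hh2 b' a']
    rw [e4, e5, e6] at this
    exact this.symm
  have : Eop a (Eop b h) y - Eop a' (Eop b' h) y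
      = (a - a') * (Eop b (Eop a' (Eop a h1)) y - Eop b (Eop a' (Eop b' h1)) y) := by
    rw [hb] at e2
    linarith
  rw [this, e3]
  have hb' : b' = a + b - a' := by linarith
  rw [hb']
  ring

end Crest.Agent.H82Exp
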