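import Crest.Agent.H82Exp.Base

set_option autoImplicit false

open MeasureTheory Set Filter Topology
open Crest.AlgGeometry (truncExpWeight)

namespace Crest.Agent.H82Exp

lemma exp_ge_Q3 {y : ℝ} (hy : 0 ≤ y) : 1 + y + y ^ 2 / 2 + y ^ 3 / 6 ≤ Real.exp y := by
  have := Real.sum_le_exp_of_nonneg hy 4
  simp [Finset.sum_range_succ, Nat.factorial] at this
  linarith

lemma exp_ge_Q4 {y : ℝ} (hy : 0 ≤ y) :
    1 + y + y ^ 2 / 2 + y ^ 3 / 6 + y ^ 4 / 24 ≤ Real.exp y := by
  have := Real.sum_le_exp_of_nonneg hy 5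
  simp [Finset.sum_range_succ, Nat.factorial] at this
  linarith

lemma exp_neg_le_quad {z : ℝ} (hz : 0 ≤ z) : Real.exp (-z) ≤ 1 - z + z ^ 2 / 2 := by
  have h := Real.quadratic_le_exp_of_nonneg hz
  rw [Real.exp_neg, inv_le_comm₀ (Real.exp_pos _) (by nlinarith [sq_nonneg (z - 1)])]
  refine le_trans ?_ h
  rw [inv_le_iff_one_le_mul₀ (by nlinarith [sq_nonneg (z - 1)])]
  nlinarith [sq_nonneg (z ^ 2), pow_nonneg hz 2, pow_nonneg hz 3, pow_nonneg hz 4]

/-- transfer: if `P ≤ R * Q` with `Q ≤ exp y`, `0 ≤ R`, then `exp (-y) * P ≤ R` -/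
lemma exp_mul_le {y P Q R : ℝ} (hQ : Q ≤ Real.exp y) (hR : 0 ≤ R) (h : P ≤ R * Q) :
    Real.exp (-y) * P ≤ R := by
  have h1 : P ≤ R * Real.exp y := h.trans (mul_le_mul_of_nonneg_left hQ hR)
  have h2 := mul_le_mul_of_nonneg_left h1 (Real.exp_pos (-y)).le
  have h3 : Real.exp (-y) * (R * Real.exp y) = R := by
    rw [mul_comm R, ← mul_assoc, ← Real.exp_add]; simp
  linarith

lemma case_small_one {y : ℝ} (h0 : 0 ≤ y) (h1 : y ≤ 4 / 3) :
    Real.exp (-y) * (1 + y) ≤ 28 / 25 - 7 / 20 * y := by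
  apply exp_mul_le (exp_ge_Q3 h0) (by linarith)
  have h2 : 0 ≤ 4 / 3 - y := by linarith
  nlinarith [mul_nonneg h0 h2, mul_nonneg (mul_nonneg h0 h0) h2,
    mul_nonneg (mul_nonneg (mul_nonneg h0 h0) h0) h2, sq_nonneg (y - 1), sq_nonneg (y - 1 / 2)]

lemma case_small_two {y : ℝ} (h0 : 0 ≤ y) (h1 : y ≤ 4 / 3) :
    Real.exp (-y) * (11 / 7 + y) ≤ 11 / 7 - 4 / 7 * y := by
  apply exp_mul_le (exp_ge_Q3 h0) (by linarith)
  have h2 : 0 ≤ 4 / 3 - y := by linarith
  nlinarith [mul_nonneg h0 h2, mul_nonneg (mul_nonneg h0 h0) h2,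
    mul_nonneg (mul_nonneg (mul_nonneg h0 h0) h0) h2, pow_nonneg h0 2, pow_nonneg h0 3]

lemma beta_lb : (0.67348 : ℝ) ≤ 1 - 4 / 9 * Real.exp (-(1 / 3)) := by
  have h6 : Real.exp (-(1/3)) ≤ 13 / 18 := by
    have := exp_neg_le_quad (z := 1/3) (by norm_num)
    norm_num at this ⊢
    linarith
  norm_num at h6 ⊢
  linarith

/-- small `u` -/
lemma small_u {u : ℝ} (hu0 : 0 ≤ u) (hu : u ≤ 4 / 3) :
    ∃ A B : ℝ, (∀ y, y ≤ 4 / 3 → Eop u truncExpWeight y ≤ A - B * y) ∧
      A - B * (4 / 3 - u) ≤ 1 - 4 / 9 * Real.exp (-(1 / 3)) := by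
  set w := 1 / (1 + u) with hw
  have h1u : 0 < 1 + u := by linarith
  have hwu : w * (1 + u) = 1 := by rw [hw]; field_simp
  have hw1 : w ≤ 1 := by rw [hw, div_le_one h1u]; linarith
  have hw0 : 3 / 7 ≤ w := by rw [hw, le_div_iff₀ h1u]; linarith
  refine ⟨191 / 100 * w - 79 / 100 * w ^ 2, 59 / 80 * w - 31 / 80 * w ^ 2, ?_, ?_⟩
  · intro y hy
    rcases le_or_gt y 0 with hy0 | hy0
    · have hk : Eop u truncExpWeight y ≤ 2 * w - w ^ 2 - w * (1 - w) * y := by
        rcases hu0.eq_or_lt with h | h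
        · have : w = 1 := by rw [hw, ← h]; norm_num
          rw [← h, Eop_zero, g_of_nonpos hy0, this]
          norm_num
        · rw [op_g_nonpos h hy0]
          have h1 := Real.add_one_le_exp (y / u)
          have h2 : u / (1 + u) = 1 - w := by rw [hw]; field_simp; ring
          rw [h2]
          have h3 : (1 - w) ^ 2 * (y / u + 1) ≤ (1 - w) ^ 2 * Real.exp (y / u) :=
            mul_le_mul_of_nonneg_left h1 (sq_nonneg _)
          have h4 : (1 - w) ^ 2 * (y / u) = w * (1 - w) * y := by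
            have : 1 - w = w * u := by linarith
            rw [this]; field_simp
          nlinarith
      have h1 : 0 ≤ w := by linarith
      have h5 : 0 ≤ w * (w - 3 / 7) * (-y) :=
        mul_nonneg (mul_nonneg h1 (by linarith)) (by linarith)
      nlinarith [mul_nonneg h1 (by linarith : (0:ℝ) ≤ 1 - w),
        mul_nonneg h1 (by linarith : (0:ℝ) ≤ w - 3 / 7)]
    · rw [op_g_nonneg hu0 hy0.le]
      have e : Real.exp (-y) * (1 + 2 * u + y * (1 + u)) / (1 + u) ^ 2
          = w * (Real.exp (-y) * (2 - w + y)) := by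
        rw [hw]; field_simp; ring
      rw [e]
      have h1 := case_small_one hy0.le hy
      have h2 := case_small_two hy0.le hy
      have h3 : Real.exp (-y) * (2 - w + y)
          ≤ (191 / 100 - 79 / 100 * w) - (59 / 80 - 31 / 80 * w) * y := by
        have h4 := mul_le_mul_of_nonneg_left h1 (by linarith : 0 ≤ w - 3 / 7)
        have h5 := mul_le_mul_of_nonneg_left h2 (by linarith : 0 ≤ 1 - w)
        nlinarith
      have h4 := mul_le_mul_of_nonneg_left h3 (by linarith : 0 ≤ w)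
      nlinarith
  · refine le_trans ?_ beta_lb
    have h4 : w * (4 / 3 - u) = 7 / 3 * w - 1 := by linarith
    have h5 : (59 / 80 * w - 31 / 80 * w ^ 2) * (4 / 3 - u)
        = (59 / 80 - 31 / 80 * w) * (7 / 3 * w - 1) := by
      rw [← h4]; ring
    rw [h5]
    nlinarith [mul_nonneg (by linarith : 0 ≤ w - 3 / 7) (by linarith : 0 ≤ 1 - w)]

/-- large `u` -/
lemma large_u {u : ℝ} (hu : 4 / 3 ≤ u) :
    ∃ A B : ℝ, (∀ y, y ≤ 4 / 3 → Eop u truncExpWeight y ≤ A - B * y) ∧
      A - B * (4 / 3 - u) ≤ 1 - 4 / 9 * Real.exp (-(1 / 3)) := by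
  have hu0 : 0 < u := by linarith
  have h1u : 0 < 1 + u := by linarith
  set x := 4 / (3 * u) with hx
  have hx1 : x ≤ 1 := by rw [hx, div_le_one (by positivity)]; linarith
  have hx0 : 0 < x := by positivity
  have hxu : x * u = 4 / 3 := by rw [hx]; field_simp
  set E := (u / (1 + u)) ^ 2 * Real.exp (x - 1) with hE
  -- the line is `1 - E * (2 - x + y / u)`
  refine ⟨1 - E * (2 - x), E / u, ?_, ?_⟩
  · intro y hy
    rcases le_or_gt y 0 with hy0 | hy0
    · rw [op_g_nonpos hu0 hy0]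
      have h1 := Real.add_one_le_exp (y / u - x + 1)
      have h2 : Real.exp (y / u) = Real.exp (x - 1) * Real.exp (y / u - x + 1) := by
        rw [← Real.exp_add]; congr 1; ring
      rw [h2]
      have h3 : E * (y / u - x + 1 + 1) ≤ E * Real.exp (y / u - x + 1) :=
        mul_le_mul_of_nonneg_left h1 (by positivity)
      have h4 : (u / (1 + u)) ^ 2 * (Real.exp (x - 1) * Real.exp (y / u - x + 1))
          = E * Real.exp (y / u - x + 1) := by rw [hE]; ring
      rw [h4]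
      have h5 : E / u * y = E * (y / u) := by ring
      rw [h5]
      nlinarith
    · rw [op_g_nonneg hu0.le hy0.le]
      have hEx : Real.exp (x - 1) ≤ (1 + x ^ 2) / 2 := by
        have := exp_neg_le_quad (z := 1 - x) (by linarith)
        rw [neg_sub] at this
        nlinarith
      have h2x : 0 ≤ 2 - x + y / u := by
        have : 0 ≤ y / u := by positivity
        linarith
      have hE2 : E * (2 - x + y / u) ≤ (u / (1 + u)) ^ 2 * ((1 + x ^ 2) / 2) * (2 - x + y / u) := by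
        rw [hE]
        apply mul_le_mul_of_nonneg_right _ h2x
        exact mul_le_mul_of_nonneg_left hEx (by positivity)
      have hE3 : (u / (1 + u)) ^ 2 * ((1 + x ^ 2) / 2) * (2 - x + y / u)
          = (u ^ 2 + 16 / 9) * (2 * u - 4 / 3 + y) / (2 * u * (1 + u) ^ 2) := by
        rw [hx]; field_simp; ring
      set Q := 1 + y + y ^ 2 / 2 + y ^ 3 / 6 + y ^ 4 / 24 with hQ
      have hQ0 : 0 < Q := by positivity
      have key : 1 + 2 * u + y * (1 + u)
          ≤ ((1 + u) ^ 2 - (u ^ 2 + 16 / 9) * (2 * u - 4 / 3 + y) / (2 * u)) * Q := by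
        have e1 : ((1 + u) ^ 2 - (u ^ 2 + 16 / 9) * (2 * u - 4 / 3 + y) / (2 * u)) * Q
            - (1 + 2 * u + y * (1 + u))
            = ((2 * u * (1 + u) ^ 2 - (u ^ 2 + 16 / 9) * (2 * u - 4 / 3 + y)) * Q
              - 2 * u * (1 + 2 * u + y * (1 + u))) / (2 * u) := by
          field_simp
        have e2 : (2 * u * (1 + u) ^ 2 - (u ^ 2 + 16 / 9) * (2 * u - 4 / 3 + y)) * Q
              - 2 * u * (1 + 2 * u + y * (1 + u))
            = (4 / 3 + 7 / 3 * y + 5 / 3 * y ^ 2 + 7 / 18 * y ^ 3 + 1 / 18 * y ^ 4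
                - y ^ 5 / 24) * (u - 4 / 3) ^ 2
              + (8 / 3 * y + 11 / 3 * y ^ 2 + 7 / 9 * y ^ 3 + 1 / 12 * y ^ 4
                - 1 / 9 * y ^ 5) * (u - 4 / 3)
              + 1 / 9 * y ^ 2 * (12 - 4 / 3 * y - 5 / 3 * y ^ 2 - 4 / 3 * y ^ 3) := by
          rw [hQ]; ring
        have hp2 := pow_pos hy0 2
        have hp3 := pow_pos hy0 3
        have hp4 := pow_pos hy0 4
        have hy2 : y ^ 2 ≤ 16 / 9 := by
          have := pow_le_pow_left₀ hy0.le hy 2
          norm_num at this; exact this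
        have hy3 : y ^ 3 ≤ 64 / 27 := by
          have := pow_le_pow_left₀ hy0.le hy 3
          norm_num at this; exact this
        have hy5 : y ^ 5 ≤ 4 / 3 * y ^ 4 := by
          have := mul_le_mul_of_nonneg_right hy hp4.le
          have e : y ^ 5 = y * y ^ 4 := by ring
          rw [e]; exact this
        have hy5' : y ^ 5 ≤ 16 / 9 * y ^ 3 := by
          have := mul_le_mul_of_nonneg_right hy2 hp3.le
          have e : y ^ 5 = y ^ 2 * y ^ 3 := by ring
          rw [e]; exact this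
        have c2 : 0 ≤ 4 / 3 + 7 / 3 * y + 5 / 3 * y ^ 2 + 7 / 18 * y ^ 3 + 1 / 18 * y ^ 4
                - y ^ 5 / 24 := by linarith
        have c1 : 0 ≤ 8 / 3 * y + 11 / 3 * y ^ 2 + 7 / 9 * y ^ 3 + 1 / 12 * y ^ 4
                - 1 / 9 * y ^ 5 := by linarith
        have c0 : 0 ≤ 12 - 4 / 3 * y - 5 / 3 * y ^ 2 - 4 / 3 * y ^ 3 := by linarith
        have hv : 0 ≤ u - 4 / 3 := by linarith
        have : 0 ≤ ((2 * u * (1 + u) ^ 2 - (u ^ 2 + 16 / 9) * (2 * u - 4 / 3 + y)) * Q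
              - 2 * u * (1 + 2 * u + y * (1 + u))) / (2 * u) := by
          rw [e2]; positivity
        linarith
      have hR : 0 ≤ (1 + u) ^ 2 - (u ^ 2 + 16 / 9) * (2 * u - 4 / 3 + y) / (2 * u) := by
        have h7 : 0 < 1 + 2 * u + y * (1 + u) := by positivity
        by_contra hcon
        push Not at hcon
        have := mul_neg_of_neg_of_pos hcon hQ0
        linarith
      have h8 := exp_mul_le (exp_ge_Q4 hy0.le) hR key
      have h9 : Real.exp (-y) * (1 + 2 * u + y * (1 + u)) / (1 + u) ^ 2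
          ≤ ((1 + u) ^ 2 - (u ^ 2 + 16 / 9) * (2 * u - 4 / 3 + y) / (2 * u)) / (1 + u) ^ 2 :=
        div_le_div_of_nonneg_right h8 (by positivity)
      have h10 : ((1 + u) ^ 2 - (u ^ 2 + 16 / 9) * (2 * u - 4 / 3 + y) / (2 * u)) / (1 + u) ^ 2
          = 1 - (u ^ 2 + 16 / 9) * (2 * u - 4 / 3 + y) / (2 * u * (1 + u) ^ 2) := by
        field_simp
      have h11 : 1 - E * (2 - x) - E / u * y = 1 - E * (2 - x + y / u) := by ring
      rw [h11]
      linarith
  · have h1 : 1 - E * (2 - x) - E / u * (4 / 3 - u) = 1 - E := by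
      rw [← hxu]; field_simp; ring
    rw [h1]
    have h2 := Real.add_one_le_exp (2 / 3 * (1 / u - 1 / 2))
    have h3 : 0 ≤ 2 / 3 * (1 / u - 1 / 2) + 1 := by
      have : 0 < 1 / u := by positivity
      linarith
    have h4 := pow_le_pow_left₀ h3 h2 2
    rw [← Real.exp_nat_mul] at h4
    have h5 : Real.exp (x - 1) = Real.exp (-(1/3)) * Real.exp ((2:ℕ) * (2 / 3 * (1 / u - 1 / 2))) := by
      rw [← Real.exp_add]; congr 1; rw [hx]; push_cast; field_simp; ring
    have h6 : 4 / 9 * Real.exp (-(1/3)) ≤ E := by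
      rw [hE, h5]
      have h7 := mul_le_mul_of_nonneg_left h4
        (mul_nonneg (sq_nonneg (u / (1 + u))) (Real.exp_pos (-(1/3))).le)
      have h8 : (u / (1 + u)) ^ 2 * Real.exp (-(1/3)) * (2 / 3 * (1 / u - 1 / 2) + 1) ^ 2
          = 4 / 9 * Real.exp (-(1/3)) := by
        field_simp; ring
      calc 4 / 9 * Real.exp (-(1/3)) = _ := h8.symm
        _ ≤ _ := h7
        _ = _ := by ring
    linarith

/-- a list with one nonnegative entry -/
lemma single_bound {u : ℝ} (hu0 : 0 ≤ u) (L : List ℝ) (hL : ∀ c ∈ L, c ≤ 0)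
    (hsum : u + L.sum = 0) :
    EL (u :: L) truncExpWeight (4 / 3) ≤ 1 - 4 / 9 * Real.exp (-(1 / 3)) := by
  obtain ⟨A, B, h1, h2⟩ : ∃ A B : ℝ, (∀ y, y ≤ 4 / 3 → Eop u truncExpWeight y ≤ A - B * y) ∧
      A - B * (4 / 3 - u) ≤ 1 - 4 / 9 * Real.exp (-(1 / 3)) := by
    rcases le_total u (4 / 3) with h | h
    · exact small_u hu0 h
    · exact large_u h
  rw [EL_cons, ← EL_comm BM_g]
  have h3 := EL_lin (BM_g.op u) h1 L hL (4 / 3) le_rfl
  have h4 : L.sum = -u := by linarith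
  rw [h4] at h3
  have : (4 / 3 : ℝ) + -u = 4 / 3 - u := by ring
  rw [this] at h3
  linarith

end Crest.Agent.H82Exp
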